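import Vale.Agent.P263.TOP.GlueCore
import Vale.Agent.P263.TI.Final

/-!
# P263, GLUE, level A with the algebraic theorems plugged in
-/

namespace Vale.Agent.P263.TOP

open Vale.Agent.P263.TI Vale.Agent.P263.EX.GE

/-- The outputs of section `I`. -/
theorem algFacts (T : Tower) (d : ℕ) : AlgFacts T d where
  one P F t h := I_one P F t h
  two P F t h := I_two P F t h
  big n hn P F t h := by
    obtain ⟨c, hc, h1, y, hy⟩ := I_big hn P F t h
    exact ⟨c, hc, h1, y, hy⟩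

namespace SphClass

variable {T : Tower} {d : ℕ} (X : SphClass T d)

/-- **The three possibilities.** -/
theorem cases (hd : 0 < d) :
    (∀ n, X.h n = 0) ∨ (X.h 0 = 0 ∧ X.h 1 ≠ 0 ∧ ∃ s : ℕ, d + 1 = 2 ^ s) ∨
      (X.h 0 = 0 ∧ X.h 1 = 0 ∧ X.h 2 ≠ 0 ∧ ∃ s : ℕ, d + 2 = 2 ^ (s + 1)) :=
  X.trichotomy (algFacts T d) hd

/-- Outside the degrees `2^s - 1` and `2^(s+1) - 2` all functionals vanish. -/
theorem eq_zero (hd : 0 < d) (h1 : ¬ ∃ s : ℕ, d + 1 = 2 ^ s)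
    (h2 : ¬ ∃ s : ℕ, d + 2 = 2 ^ (s + 1)) (n : ℕ) : X.h n = 0 :=
  X.core (algFacts T d) hd h1 h2 n

/-- If `h 1` and `h 2` vanish then all functionals vanish. -/
theorem eq_zero_of (hd : 0 < d) (h1 : X.h 1 = 0) (h2 : X.h 2 = 0) (n : ℕ) : X.h n = 0 :=
  X.all_zero_of (algFacts T d) hd h1 h2 n

end SphClass

end Vale.Agent.P263.TOP
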