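import Vale.Agent.P263.TOP.H.TCov
import Vale.Agent.P263.TOP.GlueAlg
import Vale.Agent.P263.E.Triple
import Vale.Agent.P263.E.Cofree

/-!
# P263, GLUE, level B: the contract between the blocks

`Geo d N` : a `d`-sphere `a : A → Z` in a space `Z` which has the mod 2 cohomology of `Gam N`
(the classifying space of the symmetric group of `N` letters) in degrees `≤ D`, `d + 2 ≤ D`.

`G.phi : H^d(Gam N) → 𝔽₂` is the functional of the class of `A`; `hfun phi n` is the functional
`x ↦ phi (tr (cl^* x))` on `H^d(BW_n)`.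

The outputs of the blocks are the propositions

* `PrimStmt` : `phi` is primitive (Künneth formula in the lowest degree);
* `EStmt M` : sections E and S for the tower `M.T`;
* `CStmt M` : section C (Case 1);
* `TopStmt M` , `AllStmt` : section H.

`Geo.phi_eq_zero` : these imply `G.phi = 0` if `d + 1` and `d + 2` are not powers of two.
-/

namespace Vale.Agent.P263.TOP

open Vale.Agent.P263.S Vale.Agent.P263.E Vale.Agent.P263.TI Vale.Agent.P263.TOP.H

/-- `H^q(X; 𝔽₂)` -/
abbrev Co (X : SS) (q : ℕ) : Type := (SS.F (ZMod 2) X).H q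

/-- The tower of section `I` is the cohomology of the spaces `BW_n`. -/
structure TowerModel where
  /-- the tower -/
  T : Tower
  /-- the identification -/
  e : ∀ n q : ℕ, T.H n q ≃ₗ[ZMod 2] Co (SS.BW SS.pt n) q

/-! ### functionals on `H^d(Gam N)` -/

section functionals

variable {d N : ℕ} (phi : Co (Gam N) d →ₗ[ZMod 2] ZMod 2)

/-- the functional `x ↦ phi (tr (cl^* x))` on `H^d(BW_n)` -/
noncomputable def hfun (n : ℕ) : Co (SS.BW SS.pt n) d →ₗ[ZMod 2] ZMod 2 :=
  phi.comp ((ctree (ZMod 2) n N).mapH d)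

theorem hfun_apply (n : ℕ) (x : Co (SS.BW SS.pt n) d) :
    hfun phi n x = phi ((ctree (ZMod 2) n N).mapH d x) := rfl

/-- the same functional on the tower -/
noncomputable def hT (M : TowerModel) (n : ℕ) : M.T.H n d →ₗ[ZMod 2] ZMod 2 :=
  (hfun phi n).comp (M.e n d).toLinearMap

theorem hT_apply (M : TowerModel) (n : ℕ) (y : M.T.H n d) :
    hT phi M n y = hfun phi n (M.e n d y) := rfl

theorem hT_eq_zero_iff (M : TowerModel) (n : ℕ) : hT phi M n = 0 ↔ hfun phi n = 0 := by
  constructor
  · intro h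
    refine LinearMap.ext fun x => ?_
    have := LinearMap.congr_fun h ((M.e n d).symm x)
    rwa [hT_apply, LinearEquiv.apply_symm_apply] at this
  · intro h
    refine LinearMap.ext fun y => ?_
    rw [hT_apply, h]
    rfl

end functionals

/-! ### primitivity -/

/-- the constant map to a vertex -/
def cstM (X : SS) {Y : SS} (v : Y.obj 0) : SS.Map X Y where
  app {p} _ := SS.cst Y v p
  nat f x := by
    show SS.cst Y v _ = Y.map f (SS.cst Y v _)
    rw [SS.cst, SS.cst, ← Y.map_comp]
    rfl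

/-- `phi` is primitive: `phi (Δ^* y) = phi (i₁^* y) + phi (i₂^* y)`, `i₁, i₂ : X → X × X` the axes
through `v` -/
def Prim {X : SS} {d : ℕ} (phi : Co X d →ₗ[ZMod 2] ZMod 2) (v : X.obj 0) : Prop :=
  ∀ y : Co (X.prod X) d,
    phi (((SS.pair (SS.Map.id X) (SS.Map.id X)).pull).mapH d y) =
      phi (((SS.pair (SS.Map.id X) (cstM X v)).pull).mapH d y) +
        phi (((SS.pair (cstM X v) (SS.Map.id X)).pull).mapH d y)

/-! ### the geometric data -/

/-- A `d`-sphere `A` in a space `Z` with the mod 2 cohomology of `Gam N` in degrees `≤ D`. -/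
structure Geo (d N : ℕ) where
  hN : 3 ≤ N
  /-- the space -/
  Z : SS
  /-- the sphere -/
  A : SS
  /-- the range -/
  D : ℕ
  hD : d + 2 ≤ D
  /-- the comparison map -/
  c : SS.Map (Gam N) Z
  /-- the map of the sphere -/
  a : SS.Map A Z
  hc : ∀ j, j ≤ D → Function.Bijective ((c.pull (R := ZMod 2)).mapH j)
  hA : SphLike (ZMod 2) A d
  /-- evaluation on the fundamental class -/
  fund : Co A d ≃ₗ[ZMod 2] ZMod 2

namespace Geo

variable {d N : ℕ} (G : Geo d N)

/-- the functional of the class of `A` on `H^d(Gam N)` -/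
noncomputable def phi : Co (Gam N) d →ₗ[ZMod 2] ZMod 2 :=
  G.fund.toLinearMap.comp ((G.a.pull.mapH d).comp
    (LinearEquiv.ofBijective (G.c.pull.mapH d)
      (G.hc d (by have := G.hD; omega))).symm.toLinearMap)

theorem phi_res (z : Co G.Z d) : G.phi (G.c.pull.mapH d z) = G.fund (G.a.pull.mapH d z) := by
  have hd : d ≤ G.D := by have := G.hD; omega
  show G.fund (G.a.pull.mapH d ((LinearEquiv.ofBijective (G.c.pull.mapH d) (G.hc d hd)).symm _)) = _
  congr 2
  exact (LinearEquiv.ofBijective (G.c.pull.mapH d) (G.hc d hd)).symm_apply_apply z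

include G in
theorem dpos : 0 < d := G.hA.dpos

/-- `phi = 0` iff the sphere is zero in cohomology. -/
theorem phi_eq_zero_iff : G.phi = 0 ↔ ∀ z : Co G.Z d, G.a.pull.mapH d z = 0 := by
  constructor
  · intro h z
    have h1 := G.phi_res z
    rw [h] at h1
    exact (LinearEquiv.map_eq_zero_iff G.fund).1 h1.symm
  · intro h
    refine LinearMap.ext fun x => ?_
    obtain ⟨z, rfl⟩ := (G.hc d (by have := G.hD; omega)).2 x
    rw [G.phi_res, h z, map_zero]
    rfl

end Geo

/-! ### the contract -/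

/-- Primitivity (Künneth formula in the lowest degree). -/
def PrimStmt : Prop := ∀ {d N : ℕ} (G : Geo d N) (v : (Gam N).obj 0), Prim G.phi v

/-- Output of the sections E and S: the cofibre of the sphere relative to the covering of trees of
depth `n`. -/
def EStmt (M : TowerModel) : Prop := ∀ {d N : ℕ} (G : Geo d N) (n : ℕ), hT G.phi M n = 0 →
  ∃ (P : Psi M.T n (d + 1)) (F : Phi M.T n d P), F.phi = hT G.phi M (n + 1)

/-- Output of section C. -/
def CStmt (M : TowerModel) : Prop := ∀ {d N : ℕ} (G : Geo d N) (n c : ℕ) (hc : 0 + 2 * c = d),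
  Even c → hT G.phi M n = 0 → ∀ y : M.T.H n c, hT G.phi M (n + 1) (M.T.up n 0 c d hc y) = 0

/-- Output of section H: the first nonvanishing functional comes from the Dickson algebra. -/
def TopStmt (M : TowerModel) : Prop := ∀ {d k : ℕ} (G : Geo d (2 ^ k)),
  (∀ v, Prim G.phi v) → ∀ n : ℕ, (∀ i ≤ n, hT G.phi M i = 0) →
    ∃ t : Top M.T n d (hT G.phi M (n + 1)), (t.xi = 0 → hT G.phi M (n + 1) = 0)

/-- Output of section H: the functionals `hfun phi n` detect the primitive functionals `phi`. -/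
def AllStmt : Prop := ∀ {d N : ℕ} (phi : Co (Gam N) d →ₗ[ZMod 2] ZMod 2), 0 < d →
  (∀ v, Prim phi v) → (∀ n, hfun phi n = 0) → phi = 0

/-- The contract. -/
structure Contract (M : TowerModel) : Prop where
  prim : PrimStmt
  ext : EStmt M
  case1 : CStmt M
  top : TopStmt M
  all : AllStmt

namespace Contract

variable {M : TowerModel} (K : Contract M) {d k : ℕ} (G : Geo d (2 ^ k))

include K in
/-- the functionals of the class -/
noncomputable def sphClass : SphClass M.T d where
  h := hT G.phi M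
  ext n h := K.ext G n h
  case1 n c hc he h y := K.case1 G n c hc he h y
  top n h := K.top G (K.prim G) n h

include K in
/-- the functionals detect the class -/
theorem eq_zero_of_hfun (h : ∀ n, hfun G.phi n = 0) : G.phi = 0 :=
  K.all G.phi G.dpos (K.prim G) h

include K in
/-- **Level B**: outside the degrees `2^s - 1` and `2^(s+1) - 2` the class is zero. -/
theorem phi_eq_zero (h1 : ¬ ∃ s : ℕ, d + 1 = 2 ^ s) (h2 : ¬ ∃ s : ℕ, d + 2 = 2 ^ (s + 1)) :
    G.phi = 0 :=
  K.eq_zero_of_hfun G fun n =>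
    (hT_eq_zero_iff G.phi M n).1 ((K.sphClass G).eq_zero G.dpos h1 h2 n)

include K in
/-- **Level B**, all degrees. -/
theorem cases (h : G.phi ≠ 0) :
    (hfun G.phi 1 ≠ 0 ∧ ∃ s : ℕ, d + 1 = 2 ^ s) ∨
      (hfun G.phi 1 = 0 ∧ hfun G.phi 2 ≠ 0 ∧ ∃ s : ℕ, d + 2 = 2 ^ (s + 1)) := by
  rcases (K.sphClass G).cases G.dpos with h0 | ⟨_, h1, h2⟩ | ⟨_, h1, h2, h3⟩
  · exact absurd (K.eq_zero_of_hfun G fun n => (hT_eq_zero_iff G.phi M n).1 (h0 n)) h
  · exact Or.inl ⟨fun h3 => h1 ((hT_eq_zero_iff G.phi M 1).2 h3), h2⟩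
  · exact Or.inr ⟨(hT_eq_zero_iff G.phi M 1).1 h1,
      fun h4 => h2 ((hT_eq_zero_iff G.phi M 2).2 h4), h3⟩

end Contract

end Vale.Agent.P263.TOP
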