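import Vale.Agent.P263.TOP.EStmt
import Vale.Agent.P263.C.CaseM
import Vale.Agent.P263.C.SqTr

/-!
# P263, block C: the statement `CStmt` of level B (helper27)

`cStmt_of` : `CStmt M` (Case 1) for every tower `M` whose classes `up` are `u^j P`.
-/

noncomputable section

namespace Vale.Agent.P263.TOP

open Vale.Agent.P263.S Vale.Agent.P263.E Vale.Agent.P263.E.SS Vale.Agent.P263.TI
open Vale.Agent.P263.TOP.H

/-- every class of `BW_n` has a square which is the reduction of a class with coefficients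
`Z/2^(2^n+1)` -/
theorem mem_SqG_BW (n c : ℕ) (y : Co (SS.BW SS.pt n) c) :
    y ∈ C.SqG (C.phin n) (SS.BW SS.pt n) c := by
  rw [C.SqG_BW_top]
  exact AddSubgroup.mem_top _

namespace Geo

variable {d N : ℕ} (G : Geo d N) (n : ℕ) (h : hfun G.phi n = 0)

theorem mIn_proj (q : ℕ) (x : (G.dat (ZMod 2) n).K.H q) :
    (G.mIn n h).proj q x = (G.dat (ZMod 2) n).kw.mapH q x :=
  ((Hom.mapH_id q _).symm.trans ((G.mIn n h).ζ_proj q x))

/-- the lifting property of the reduction from `Z/4` to `Z/2` -/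
theorem mIn_lift (hd : 2 ≤ d) (w : (G.mIn n h).D.K.H d)
    (hw : (C.chgF (C.phin n) (SS.BW SS.pt n)).Lift ((G.mIn n h).proj d w)) :
    ∃ k : (G.dat (ZMod 4) n).K.Z d,
      (G.mIn n h).D.K.cls d ((C.geoBk G n).bK.redZ d k) = w := by
  obtain ⟨c, hc⟩ := hw
  obtain ⟨c, rfl⟩ := (SS.F (C.Rn n) (SS.BW SS.pt n)).cls_surjective d c
  exact C.exists_lift4 G n h hd w c ((G.mIn_proj n h d w).symm.trans hc.symm)

include h in
/-- **Case 1** for the functional `hfun`. -/
theorem hfun_up {c : ℕ} (hc : 0 + 2 * c = d) (he : Even c)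
    (y : Co (SS.BW SS.pt n) c) : hfun G.phi (n + 1) (upZ (SS.BW SS.pt n) 0 c d hc y) = 0 := by
  have hd := G.dpos
  obtain ⟨x, rfl⟩ := ((G.mIn n h).proj_bij (q := c) (by omega)).2 y
  exact (G.ev_tr_cl2 n _).symm.trans
    ((G.mIn n h).case1_of_lift (C.geoBk G n) (G.mIn_lift n h (by omega)) he (by omega) hc x
      (mem_SqG_BW n c _))

end Geo

/-- **`CStmt`**, from the comparison of the tower with the spaces `BW_n`. -/
theorem cStmt_of (M : TowerModel)
    (hup : ∀ (n j q d : ℕ) (h : j + 2 * q = d) (y : M.T.H n q),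
      M.e (n + 1) d (M.T.up n j q d h y) = upZ (SS.BW SS.pt n) j q d h (M.e n q y)) : CStmt M := by
  intro d N G n c hc he h y
  rw [hT_apply, hup]
  exact G.hfun_up n ((hT_eq_zero_iff G.phi M n).1 h) hc he _

end Vale.Agent.P263.TOP
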