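import Vale.Agent.P263.TOP.LevelB
import Vale.Agent.P263.E.Skel
import Vale.Agent.P263.E.Seq
import Vale.Agent.P263.E.Cl
import Vale.Agent.P263.E.TripThick

/-!
# P263, GLUE, level T: from `Geo` to the input of the blocks E and C

For `G : Geo d N` and `n`: `G.B = sk (D+1) (Gam N)`, `G.Y n` the covering of trees of depth `n`
over it, `G.Z'` a thickening of `G.Z` such that `G.B + G.A → G.Z'` is injective, `G.I R` the algebra
of the functions on `G.Z'` which are constant on `G.A`, `G.dat R n : Dat R (G.Y n)` and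
`G.trip R n : Trip R K I (F (BW_n)) Z' B A`.
-/

noncomputable section

namespace Vale.Agent.P263.TOP

open Vale.Agent.P263.S Vale.Agent.P263.E Vale.Agent.P263.TI Vale.Agent.P263.TOP.H

/-! ### algebras of functions -/

/-- the algebra of functions -/
def fnAlg (R : Type) [CommRing R] (X : SS) : Alg (SS.F R X) where
  mul :=
    { app := fun p => LinearMap.mk₂ R (fun a b => SS.mul a b)
        (fun a a' b => by funext x; exact add_mul _ _ _)
        (fun c a b => by funext x; exact mul_assoc _ _ _)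
        (fun a b b' => by funext x; exact mul_add _ _ _)
        (fun c a b => by funext x; exact mul_left_comm _ _ _)
      nat := fun _ _ _ => rfl }
  comm p x y := by funext s; exact mul_comm _ _
  assoc p x y z := by funext s; exact mul_assoc _ _ _

@[simp] theorem fnAlg_mul {R : Type} [CommRing R] {X : SS} {p : ℕ} (x y : (SS.F R X).obj p) :
    (fnAlg R X).mul.app p x y = SS.mul x y := rfl

section cstOn

variable (R : Type) [CommRing R] {A Z : SS} (a : SS.Map A Z)

/-- the product of two functions which are constant on `A` -/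
def cstMul {p : ℕ} (z w : (cstOn R a).obj p) : (cstOn R a).obj p :=
  cstOnMk (SS.mul ((cstOnIncl R a).app p z) ((cstOnIncl R a).app p w)) fun x y => by
    rw [SS.mul_apply, SS.mul_apply, cstOn_prop z x y, cstOn_prop w x y]

/-- the algebra of the functions on `Z` which are constant on `A` -/
def cstAlg : Alg (cstOn R a) where
  mul :=
    { app := fun p => LinearMap.mk₂ R (fun z w => cstMul R a z w)
        (fun a a' b => by apply Subtype.ext; funext x; exact add_mul _ _ _)
        (fun c a b => by apply Subtype.ext; funext x; exact mul_assoc _ _ _)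
        (fun a b b' => by apply Subtype.ext; funext x; exact mul_add _ _ _)
        (fun c a b => by apply Subtype.ext; funext x; exact mul_left_comm _ _ _)
      nat := fun _ _ _ => rfl }
  comm p x y := by apply Subtype.ext; funext s; exact mul_comm _ _
  assoc p x y z := by apply Subtype.ext; funext s; exact mul_assoc _ _ _

theorem cstOnIncl_mul (p : ℕ) (z w : (cstOn R a).obj p) :
    (cstOnIncl R a).app p ((cstAlg R a).mul.app p z w) =
      SS.mul ((cstOnIncl R a).app p z) ((cstOnIncl R a).app p w) := rfl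

/-- restriction from the functions constant on `A` to the functions on `B` is onto -/
theorem cst_onto {B : SS} {b : SS.Map B Z} {a : SS.Map A Z} (inj : (SS.copair b a).Inj) (p : ℕ) :
    Function.Surjective (((b.pull (R := R)).comp (cstOnIncl R a)).app p) := by
  intro f
  obtain ⟨z, hz⟩ := inj.pull_surjective (R := R) p (Sum.elim f (fun _ => 0))
  have hA : ∀ x : A.obj p, z (a.app x) = 0 := fun x => congrFun hz (Sum.inr x)
  refine ⟨cstOnMk z fun x y => by rw [hA, hA], ?_⟩
  funext x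
  exact congrFun hz (Sum.inl x)

end cstOn

/-! ### a vertex of `Gam N` -/

/-- the vertex with the labels `0, …, N - 1` -/
def gamV (N : ℕ) : (Gam N).obj 0 :=
  ⟨(Finset.range N).image (fun j => fun _ => j), by
    constructor
    · intro i s hs t ht h
      rw [Finset.coe_image] at hs ht
      obtain ⟨a, -, rfl⟩ := hs
      obtain ⟨b, -, rfl⟩ := ht
      have : a = b := h
      rw [this]
    · rw [Finset.card_image_of_injective, Finset.card_range]
      intro a b h
      exact congrFun h 0⟩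

/-! ### trees exist -/

theorem three_le_card_trees {α : Type} [DecidableEq α] {F : Finset α} (hF : 3 ≤ F.card) :
    ∀ n : ℕ, 3 ≤ (trees n F).card
  | 0 => hF
  | n + 1 => by
    have ih := three_le_card_trees hF n
    obtain ⟨a, b, c, ha, hb, hc, hab, hac, hbc⟩ := Finset.two_lt_card_iff.1 ih
    have hT : 2 < (trees (n + 1) F).card := by
      rw [Finset.two_lt_card_iff]
      refine ⟨s(a, b), s(a, c), s(b, c), mem_trees_succ.2 ⟨ha, hb, hab⟩,
        mem_trees_succ.2 ⟨ha, hc, hac⟩, mem_trees_succ.2 ⟨hb, hc, hbc⟩, ?_, ?_, ?_⟩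
      · intro h
        rcases Sym2.eq_iff.1 h with ⟨_, h2⟩ | ⟨h1, _⟩
        · exact hbc h2
        · exact hac h1
      · intro h
        rcases Sym2.eq_iff.1 h with ⟨h1, _⟩ | ⟨h1, _⟩
        · exact hab h1
        · exact hac h1
      · intro h
        rcases Sym2.eq_iff.1 h with ⟨h1, _⟩ | ⟨h1, _⟩
        · exact hab h1
        · exact hac h1
    exact hT

theorem TCov_full {N : ℕ} (hN : 3 ≤ N) (n : ℕ) : (TCov n N).Full := by
  intro p F
  have h := three_le_card_trees (hF := (by rw [F.2.2]; exact hN : 3 ≤ F.1.card)) n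
  obtain ⟨t, ht⟩ := Finset.card_pos.1 (by omega : 0 < (trees n F.1).card)
  exact ⟨⟨(F.1, t), F.2, ht⟩, (TCov n N).mem_fib.2 rfl⟩

theorem full_pullback {B B' : SS} {Y : Cov B} (h : Y.Full) (f : SS.Map B' B) :
    (Y.pullback f).Full := by
  intro p b
  obtain ⟨y, hy⟩ := h (f.app b)
  exact ⟨⟨(b, y), Y.mem_fib.1 hy⟩, (Y.pullback f).mem_fib.2 rfl⟩

namespace Geo

variable {d N : ℕ} (G : Geo d N) (R : Type) [CommRing R]

/-- the base, a skeleton of `Gam N` -/
def B : SS := SS.sk (G.D + 1) (Gam N)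

/-- the inclusion of the skeleton -/
def incB : SS.Map G.B (Gam N) := SS.skIncl (G.D + 1) (Gam N)

theorem dim_B : SS.Dim (G.D + 1) G.B := SS.dim_sk _ _

/-- the covering of trees of depth `n` over `B` -/
def Y (n : ℕ) : Cov G.B := (TCov n N).pullback G.incB

theorem full_Y (n : ℕ) : (G.Y n).Full := full_pullback (TCov_full G.hN n) _

theorem dim_Y (n : ℕ) : SS.Dim (G.D + 1) (G.Y n).tot := G.dim_B.cov _

/-- the classifying map of the covering of trees -/
def clY (n : ℕ) : SS.Map (G.Y n).tot (SS.BW SS.pt n) :=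
  (TT.cls n N).comp ((TCov n N).pullbackMap G.incB)

/-- the thickening of `Z` -/
abbrev Z' : SS := TZ G.Z G.B G.A

/-- the inclusion of `B` -/
def b : SS.Map G.B G.Z' := thB (G.c.comp G.incB) G.a

/-- the inclusion of `A` -/
def a' : SS.Map G.A G.Z' := thA (G.c.comp G.incB) G.a

theorem ba_inj : (SS.copair G.b G.a').Inj := th_inj _ _

/-- the algebra of the functions on `Z'` which are constant on `A` -/
abbrev I : CosMod R := cstOn R G.a'

/-- the input of block `[E]` -/
def dat (n : ℕ) : Dat R (G.Y n) where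
  I := G.I R
  Z := SS.F R (SS.BW SS.pt n)
  aI := cstAlg R G.a'
  aZ := fnAlg R (SS.BW SS.pt n)
  r := (G.b.pull (R := R)).comp (cstOnIncl R G.a')
  rho := (G.clY n).pull
  r_mul _ _ _ := rfl
  rho_mul _ _ _ := rfl
  r_onto p := cst_onto R G.ba_inj p

/-- The triple. -/
def trip (n : ℕ) : Trip R (G.dat R n).K (G.dat R n).I (G.dat R n).Z G.Z' G.B G.A :=
  Trip.mk' G.b G.a' G.ba_inj (((G.Y n).tr (R := R)).comp (G.clY n).pull) (G.dat R n).kz
    (G.dat R n).kw
    { inj := fun _ _ h1 h2 => (G.dat R n).extK (h1.trans (map_zero _).symm)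
        (h2.trans (map_zero _).symm)
      comm := fun _ x => (G.dat R n).r_kz x
      ex := fun _ z w h => ⟨(G.dat R n).mkK z w h, rfl, rfl⟩ }

/-! ### the range -/

variable {R}

/-- simplices of `B + A` in every degree -/
def pt0 (p : ℕ) : (G.B.sum G.A).obj p := Sum.inr (G.hA.ne p).some

/-- the projection of the thickening -/
def prZ : SS.Map G.Z' G.Z := thPr G.Z G.B G.A

theorem prZ_mapH_bijective (j : ℕ) : Function.Bijective ((G.prZ.pull (R := R)).mapH j) :=
  thPr_bij G.pt0 j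

theorem b_prZ (j : ℕ) (z : (SS.F R G.Z).H j) :
    (G.b.pull (R := R)).mapH j ((G.prZ.pull (R := R)).mapH j z) =
      (G.incB.pull (R := R)).mapH j ((G.c.pull (R := R)).mapH j z) := by
  rw [← Hom.mapH_comp, ← Hom.mapH_comp]
  rfl

theorem a_prZ (j : ℕ) (z : (SS.F R G.Z).H j) :
    (G.a'.pull (R := R)).mapH j ((G.prZ.pull (R := R)).mapH j z) =
      (G.a.pull (R := R)).mapH j z := by
  rw [← Hom.mapH_comp]
  rfl

/-- If `c` is bijective on `H^j(-; R)` then so is `b`, `j ≤ D`. -/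
theorem b_bijective {j : ℕ} (hj : j ≤ G.D)
    (hc : Function.Bijective ((G.c.pull (R := R)).mapH j)) :
    Function.Bijective ((G.b.pull (R := R)).mapH j) :=
  thB_bij _ _ G.pt0 (SS.mapH_comp_skIncl_bijective G.c (by omega) hc)

/-- the hypotheses of block E8 -/
theorem base (n : ℕ) : (G.trip (ZMod 2) n).Base d G.D where
  hD := G.hD
  hA := G.hA
  hB j hj := G.b_bijective hj (G.hc j hj)

theorem d_le : d ≤ G.D := by have := G.hD; omega

/-- `ev` on `H^d(B)` is the functional `phi`. -/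
theorem ev_incB (n : ℕ) (x : Co (Gam N) d) :
    (G.base n).ev G.d_le (G.incB.pull.mapH d x) = G.fund.symm (G.phi x) := by
  obtain ⟨z, rfl⟩ := (G.hc d G.d_le).2 x
  rw [G.phi_res, LinearEquiv.symm_apply_apply, ← G.b_prZ, ← G.a_prZ]
  exact (G.base n).ev_res G.d_le _

/-- the transfer of the covering of trees over the skeleton -/
theorem tr_clY (n : ℕ) :
    (((G.Y n).tr (R := R)).comp (G.clY n).pull) = (G.incB.pull).comp (ctree R n N) := by
  apply Hom.ext
  intro p x
  exact (TCov n N).tr_pullback G.incB ((TT.cls n N).pull.app p x)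

theorem trip_t (n : ℕ) : (G.trip R n).t = ((G.Y n).tr (R := R)).comp (G.clY n).pull := rfl

theorem t_mapH (n j : ℕ) (v : (SS.F R (SS.BW SS.pt n)).H j) :
    (G.trip R n).t.mapH j v = (G.incB.pull).mapH j ((ctree R n N).mapH j v) :=
  (congrArg (fun f => Hom.mapH f j v) (G.tr_clY (R := R) n)).trans
    (Hom.mapH_comp G.incB.pull (ctree R n N) j v)

/-- `ev` of the transfer is `hfun`. -/
theorem ev_t (n : ℕ) (v : Co (SS.BW SS.pt n) d) :
    G.fund ((G.base n).ev G.d_le ((G.trip (ZMod 2) n).t.mapH d v)) = hfun G.phi n v := by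
  rw [G.t_mapH, G.ev_incB, LinearEquiv.apply_symm_apply]
  rfl

/-- the minimality hypothesis of block E8 -/
theorem hmin_iff (n : ℕ) : (∀ w : Co (SS.BW SS.pt n) d,
    (G.base n).ev G.d_le ((G.trip (ZMod 2) n).t.mapH d w) = 0) ↔ hfun G.phi n = 0 := by
  constructor
  · intro h
    refine LinearMap.ext fun v => ?_
    rw [← G.ev_t, h, map_zero]
    rfl
  · intro h w
    apply G.fund.injective
    rw [G.ev_t, h, map_zero]
    rfl

/-! ### unordered pairs of trees -/

/-- the tree of a point of `Y` -/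
def tre {n p : ℕ} (y : (G.Y n).tot.obj p) : TW (Lab p) n := y.1.2.1.2

theorem tre_map {n p q : ℕ} (θ : Op p q) (y : (G.Y n).tot.obj q) :
    G.tre ((G.Y n).tot.map θ y) = TW.map (rl θ) n (G.tre y) := rfl

theorem tre_mem {n p : ℕ} (y : (G.Y n).tot.obj p) :
    G.tre y ∈ trees n (G.incB.app ((G.Y n).pr.app y)).1 := by
  have h : (TT.pr n N).app y.1.2 = G.incB.app y.1.1 := y.2
  have h2 : y.1.2.1.1 = (G.incB.app y.1.1).1 := congrArg (fun F : (Gam N).obj p => F.1) h
  have h3 := y.1.2.2.2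
  rw [h2] at h3
  exact h3

theorem Y_ext {n p : ℕ} {y y' : (G.Y n).tot.obj p} (h : (G.Y n).pr.app y = (G.Y n).pr.app y')
    (h' : G.tre y = G.tre y') : y = y' := by
  apply Subtype.ext
  refine Prod.ext h ?_
  refine TT.ext ?_ h'
  have h1 : (TT.pr n N).app y.1.2 = G.incB.app y.1.1 := y.2
  have h2 : (TT.pr n N).app y'.1.2 = G.incB.app y'.1.1 := y'.2
  have h3 : y.1.1 = y'.1.1 := h
  rw [h1, h2, h3]

/-- the point of `Y` given by a tree -/
def mkY {n p : ℕ} (b : G.B.obj p) (t : TW (Lab p) n) (ht : t ∈ trees n (G.incB.app b).1) :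
    (G.Y n).tot.obj p := ⟨(b, ⟨((G.incB.app b).1, t), (G.incB.app b).2, ht⟩), rfl⟩

@[simp] theorem pr_mkY {n p : ℕ} (b : G.B.obj p) (t : TW (Lab p) n)
    (ht : t ∈ trees n (G.incB.app b).1) : (G.Y n).pr.app (G.mkY b t ht) = b := rfl

@[simp] theorem tre_mkY {n p : ℕ} (b : G.B.obj p) (t : TW (Lab p) n)
    (ht : t ∈ trees n (G.incB.app b).1) : G.tre (G.mkY b t ht) = t := rfl

theorem tre_ne {n p : ℕ} (x : ((G.Y n).nc C2).tot.obj p) (i : Fin (p + 1)) :
    ev n i (G.tre ((G.Y n).p1 x)) ≠ ev n i (G.tre ((G.Y n).p2 x)) := by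
  have h1 := G.tre_mem ((G.Y n).p1 x)
  have h2 := G.tre_mem ((G.Y n).p2 x)
  rw [(G.Y n).pr_p1 x] at h1
  rw [(G.Y n).pr_p2 x] at h2
  refine (G.incB.app x.1.base).2.1.ev_ne h1 h2 (fun h => ?_) i
  exact (G.Y n).p1_ne_p2 x (G.Y_ext (((G.Y n).pr_p1 x).trans ((G.Y n).pr_p2 x).symm) h)

/-- the labelling of the ordered pairs of trees by their relative order -/
def plab (n : ℕ) : (G.Y n).PLab where
  c x := ord n (G.tre ((G.Y n).p1 x)) (G.tre ((G.Y n).p2 x)) 0
  c_swap x := by
    rw [(G.Y n).p1_swap, (G.Y n).p2_swap]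
    exact congrFun (ord_symm (G.tre_ne x)) 0

theorem plab_lab {n p : ℕ} (x : ((G.Y n).nc C2).tot.obj p) :
    (G.plab n).lab x = ord n (G.tre ((G.Y n).p1 x)) (G.tre ((G.Y n).p2 x)) := by
  funext i
  rw [Cov.PLab.lab_apply]
  exact congrFun (ord_map (vx p i) (G.tre ((G.Y n).p1 x)) (G.tre ((G.Y n).p2 x))) 0

/-- the tree of depth `n + 1` of an ordered pair -/
def tre2 {n p : ℕ} (x : ((G.Y n).nc C2).tot.obj p) : TW (Lab p) (n + 1) :=
  (s(G.tre ((G.Y n).p1 x), G.tre ((G.Y n).p2 x)) : Sym2 (TW (Lab p) n))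

theorem cl2_toSub {n p : ℕ} (x : ((G.Y n).nc C2).tot.obj p) :
    ((G.Y n).cl2 (G.plab n) (G.clY n)).app ((G.Y n).toSub.app x) = cl (n + 1) (G.tre2 x) := by
  refine ((G.Y n).cl2_toSub (G.plab n) (G.clY n) x).trans ?_
  rw [plab_lab]
  exact (cl_mk_of_ne n (G.tre_ne x)).symm

theorem tre2_mem {n p : ℕ} (x : ((G.Y n).nc C2).tot.obj p) :
    G.tre2 x ∈ trees (n + 1) (G.incB.app x.1.base).1 := by
  have h1 := G.tre_mem ((G.Y n).p1 x)
  have h2 := G.tre_mem ((G.Y n).p2 x)
  rw [(G.Y n).pr_p1 x] at h1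
  rw [(G.Y n).pr_p2 x] at h2
  refine mem_trees_succ.2 ⟨h1, h2, fun h => ?_⟩
  exact (G.Y n).p1_ne_p2 x (G.Y_ext (((G.Y n).pr_p1 x).trans ((G.Y n).pr_p2 x).symm) h)

theorem tre2_swap {n p : ℕ} (x : ((G.Y n).nc C2).tot.obj p) :
    G.tre2 ((G.Y n).swap.app x) = G.tre2 x := Sym2.eq_swap

theorem toSub_eq_of_tre2 {n p : ℕ} {x x' : ((G.Y n).nc C2).tot.obj p}
    (hb : x.1.base = x'.1.base) (h : G.tre2 x = G.tre2 x') :
    (G.Y n).toSub.app x = (G.Y n).toSub.app x' := by
  have hp1 : (G.Y n).pr.app ((G.Y n).p1 x) = x'.1.base := ((G.Y n).pr_p1 x).trans hb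
  have hp2 : (G.Y n).pr.app ((G.Y n).p2 x) = x'.1.base := ((G.Y n).pr_p2 x).trans hb
  rcases Sym2.eq_iff.1 h with ⟨h1, h2⟩ | ⟨h1, h2⟩
  · exact congrArg _ ((G.Y n).pair_ext (G.Y_ext (hp1.trans ((G.Y n).pr_p1 x').symm) h1)
      (G.Y_ext (hp2.trans ((G.Y n).pr_p2 x').symm) h2))
  · refine ((G.Y n).toSub_eq_iff).2 (Or.inr ?_)
    exact (G.Y n).pair_ext (G.Y_ext (hp1.trans ((G.Y n).pr_p2 x').symm) h1)
      (G.Y_ext (hp2.trans ((G.Y n).pr_p1 x').symm) h2)

/-- sums over the unordered pairs of trees of depth `n` are sums over the trees of depth `n + 1` -/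
theorem sum_ksub_cl2 {n p : ℕ} {M : Type*} [AddCommMonoid M] (b : G.B.obj p)
    (w : (SS.BW SS.pt (n + 1)).obj p → M) :
    ∑ v ∈ ((G.Y n).ksub 2).fib b, w (((G.Y n).cl2 (G.plab n) (G.clY n)).app v) =
      ∑ t ∈ trees (n + 1) (G.incB.app b).1, w (cl (n + 1) t) := by
  classical
  refine Finset.sum_bij (fun v _ => G.tre2 ((G.Y n).toSub_surj v).choose) ?_ ?_ ?_ ?_
  · intro v hv
    have h1 : v.base = b := ((G.Y n).ksub 2).mem_fib.1 hv
    have h2 := G.tre2_mem ((G.Y n).toSub_surj v).choose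
    have h3 : ((G.Y n).toSub_surj v).choose.1.base = b :=
      (congrArg (fun w : ((G.Y n).ksub 2).tot.obj p => w.base)
        ((G.Y n).toSub_surj v).choose_spec).trans h1
    rwa [h3] at h2
  · intro v hv v' hv' h
    have h1 : v.base = b := ((G.Y n).ksub 2).mem_fib.1 hv
    have h1' : v'.base = b := ((G.Y n).ksub 2).mem_fib.1 hv'
    have h3 : ((G.Y n).toSub_surj v).choose.1.base = b :=
      (congrArg (fun w : ((G.Y n).ksub 2).tot.obj p => w.base)
        ((G.Y n).toSub_surj v).choose_spec).trans h1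
    have h3' : ((G.Y n).toSub_surj v').choose.1.base = b :=
      (congrArg (fun w : ((G.Y n).ksub 2).tot.obj p => w.base)
        ((G.Y n).toSub_surj v').choose_spec).trans h1'
    rw [← ((G.Y n).toSub_surj v).choose_spec, ← ((G.Y n).toSub_surj v').choose_spec]
    exact G.toSub_eq_of_tre2 (h3.trans h3'.symm) h
  · intro t ht
    induction t using Sym2.ind with
    | _ s t =>
      rw [mem_trees_succ] at ht
      obtain ⟨hs, ht, hne⟩ := ht
      let x : ((G.Y n).nc C2).tot.obj p := (G.Y n).mkPair (G.mkY b s hs) (G.mkY b t ht) rfl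
        (fun h => hne (congrArg G.tre h))
      have hx : G.tre2 x = (s(s, t) : Sym2 (TW (Lab p) n)) := rfl
      refine ⟨(G.Y n).toSub.app x, ((G.Y n).ksub 2).mem_fib.2 rfl, ?_⟩
      have h5 := ((G.Y n).toSub_surj ((G.Y n).toSub.app x)).choose_spec
      rcases ((G.Y n).toSub_eq_iff).1 h5 with h6 | h6
      · show G.tre2 ((G.Y n).toSub_surj ((G.Y n).toSub.app x)).choose = _
        rw [h6, hx]
      · show G.tre2 ((G.Y n).toSub_surj ((G.Y n).toSub.app x)).choose = _
        rw [h6, tre2_swap, hx]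
  · intro v hv
    show _ = w (cl (n + 1) (G.tre2 ((G.Y n).toSub_surj v).choose))
    rw [← G.cl2_toSub, ((G.Y n).toSub_surj v).choose_spec]

/-- the transfer of the covering of unordered pairs of trees of depth `n` -/
theorem tr_cl2 (n : ℕ) :
    (((G.Y n).ksub 2).tr (R := R)).comp ((G.Y n).cl2 (G.plab n) (G.clY n)).pull =
      (G.incB.pull).comp (ctree R (n + 1) N) := by
  apply Hom.ext
  intro p x
  funext b
  refine (G.sum_ksub_cl2 b x).trans ?_
  exact (ctree_apply (n := n + 1) x (G.incB.app b)).symm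

/-- **The transfer term of LZ_1 is `hfun (n + 1)`.** -/
theorem ev_tr_cl2 (n : ℕ) (v : Co (SS.BW SS.pt (n + 1)) d) :
    G.fund ((G.base n).ev G.d_le ((((G.Y n).ksub 2).tr).mapH d
      (((G.Y n).cl2 (G.plab n) (G.clY n)).pull.mapH d v))) = hfun G.phi (n + 1) v := by
  have h1 : (((G.Y n).ksub 2).tr (R := ZMod 2)).mapH d
      (((G.Y n).cl2 (G.plab n) (G.clY n)).pull.mapH d v) =
        G.incB.pull.mapH d ((ctree (ZMod 2) (n + 1) N).mapH d v) := by
    refine (Hom.mapH_comp _ _ d v).symm.trans ?_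
    refine (congrArg (fun f => Hom.mapH f d v) (G.tr_cl2 (R := ZMod 2) n)).trans ?_
    exact Hom.mapH_comp G.incB.pull (ctree (ZMod 2) (n + 1) N) d v
  rw [h1, G.ev_incB, LinearEquiv.apply_symm_apply]
  rfl

end Geo

end Vale.Agent.P263.TOP
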