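import Vale.Agent.P263.E.Main
import Vale.Agent.P263.E.BMDat
import Vale.Agent.P263.E.NilInst
import Vale.Agent.P263.TOP.LevelT

/-!
# P263, block E: the statement `EStmt` of level B (helper70)

For `G : Geo d N` with `hfun G.phi n = 0` the cofibre of the sphere relative to the covering of
trees of depth `n` gives the data `MIn` of `E/Main`.

`eStmt_of` : `EStmt M` for every tower `M` whose squares are `sqc` and whose classes `up` are
`u^j P`.
-/

noncomputable section

namespace Vale.Agent.P263.TOP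

open Vale.Agent.P263.S Vale.Agent.P263.E Vale.Agent.P263.E.SS Vale.Agent.P263.TI
open Vale.Agent.P263.TOP.H

theorem id_mapH_bijective {R : Type} [CommRing R] (A : CosMod R) (j : ℕ) :
    Function.Bijective ((Hom.id A).mapH j) :=
  ⟨fun x y h => ((Hom.mapH_id j x).symm.trans h).trans (Hom.mapH_id j y),
    fun x => ⟨x, Hom.mapH_id j x⟩⟩

namespace Geo

variable {d N : ℕ} (G : Geo d N) (n : ℕ)

theorem nilY (k : ℕ) (x : (guHG idC ((G.Y n).actNC (ZMod 2) C2 C2)).H k) :
    (guHG idC ((G.Y n).actNC (ZMod 2) C2 C2)).upow (G.D + 1 + 1) k x = 0 :=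
  (G.Y n).nilC2 G.dim_B k x

/-- the input of the squares on the cohomology of the cofibre -/
def powIn : PowIn := (G.dat (ZMod 2) n).pw (G.D + 1 + 1) (G.nilY n)

/-- the functional of the class of the sphere on `H^d(B)` -/
def evB : Co G.B d →ₗ[ZMod 2] ZMod 2 := G.fund.toLinearMap.comp ((G.base n).ev G.d_le)

theorem conn_evB (x : Co G.B d) :
    (G.dat (ZMod 2) n).s1.conn d x = G.evB n x • (G.trip (ZMod 2) n).iota G.fund := by
  refine ((G.base n).conn_B_top G.fund (G.dat (ZMod 2) n).s1 (Hom.fst _ _) (Hom.snd _ _)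
    (fun _ _ => rfl) (fun _ _ => rfl) (fun _ _ => rfl) x).trans ?_
  exact ZModModule.neg_eq_self _

theorem kw_bijective (h : hfun G.phi n = 0) (q : ℕ) (hq : q ≤ d) :
    Function.Bijective ((G.dat (ZMod 2) n).kw.mapH q) :=
  (G.base n).snd_bij ((G.hmin_iff n).2 h) hq

/-- the data of the Bullett-Macdonald relations -/
def setup2 : Setup2 (G.powIn n).st :=
  (G.dat (ZMod 2) n).setup2 (G.D + 1 + 1) (G.nilY n) G.dim_B

/-- the data of block E -/
def mIn (h : hfun G.phi n = 0) : MIn (G.Y n) (SS.BW SS.pt n) d where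
  D := G.dat (ZMod 2) n
  cl := G.clY n
  ζ := Hom.id _
  ζ_bij j := id_mapH_bijective _ j
  ζ_mul _ _ _ := rfl
  rho_ζ := rfl
  PL := G.plab n
  R := G.D + 1 + 1
  nil := G.nilY n
  S2 := G.setup2 n
  kw_bij := G.kw_bijective n h
  iota := (G.trip (ZMod 2) n).iota G.fund
  iota_ne := (G.base n).iota_ne G.fund ((G.hmin_iff n).2 h)
  phi := G.evB n
  conn := G.conn_evB n

theorem mIn_Sq (h : hfun G.phi n = 0) (q j : ℕ) : (G.mIn n h).Sq q j =
    ((G.dat (ZMod 2) n).pw (G.D + 1 + 1) (G.nilY n)).st.Sq q j := rfl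

theorem proj_mIn (h : hfun G.phi n = 0) (q : ℕ) (x : (G.dat (ZMod 2) n).K.H q) :
    (G.mIn n h).proj q x = (G.dat (ZMod 2) n).kw.mapH q x := by
  have h1 := (G.mIn n h).ζ_proj q x
  exact (Hom.mapH_id q _).symm.trans h1

section tower

variable (M : TowerModel)
    (hsq : ∀ (n a q q' : ℕ) (h : q + a = q') (y : M.T.H n q),
      M.e n q' (M.T.sq n a q q' h y) = sqc (SS.BW SS.pt n) q q' (M.e n q y))
    (hup : ∀ (n j q d : ℕ) (h : j + 2 * q = d) (y : M.T.H n q),
      M.e (n + 1) d (M.T.up n j q d h y) = upZ (SS.BW SS.pt n) j q d h (M.e n q y))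

/-- the output of block E for the tower -/
def edata (h : hfun G.phi n = 0) : EData M.T n d := (G.mIn n h).toEData M.T n (M.e n) (hsq n)

theorem edata_E (h : hfun G.phi n = 0) (q : ℕ) :
    (G.edata n M hsq h).E q = (G.dat (ZMod 2) n).K.H q := rfl

theorem edata_Sq (h : hfun G.phi n = 0) (q j : ℕ) :
    (G.edata n M hsq h).Sq q j = (G.mIn n h).Sq q j := rfl

theorem edata_Sq_apply (h : hfun G.phi n = 0) (q j : ℕ) (x : (G.dat (ZMod 2) n).K.H q) :
    (G.edata n M hsq h).Sq q j x =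
      ((G.dat (ZMod 2) n).pw (G.D + 1 + 1) (G.nilY n)).st.Sq q j x :=
  LinearMap.congr_fun (G.mIn_Sq n h q j) x

theorem edata_Sq_Sq (h : hfun G.phi n = 0) (c i j : ℕ) (x : (G.dat (ZMod 2) n).K.H c)
    (hx : ((G.dat (ZMod 2) n).pw (G.D + 1 + 1) (G.nilY n)).st.Sq i j
      (((G.dat (ZMod 2) n).pw (G.D + 1 + 1) (G.nilY n)).st.Sq c i x) = 0) :
    (G.edata n M hsq h).Sq i j ((G.edata n M hsq h).Sq c i x) = 0 := by
  have h1 := G.edata_Sq_apply n M hsq h c i x
  have h2 := G.edata_Sq_apply n M hsq h i j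
    (((G.dat (ZMod 2) n).pw (G.D + 1 + 1) (G.nilY n)).st.Sq c i x)
  exact (congrArg (fun w => (G.edata n M hsq h).Sq i j w) h1).trans (h2.trans hx)

theorem edata_p (h : hfun G.phi n = 0) (q : ℕ) (x : (G.dat (ZMod 2) n).K.H q) :
    M.e n q ((G.edata n M hsq h).p q x) = (G.dat (ZMod 2) n).kw.mapH q x :=
  ((M.e n q).apply_symm_apply _).trans (G.proj_mIn n h q x)

include hup in
theorem edata_lz (h : hfun G.phi n = 0) {j q : ℕ} (e : j + 2 * q = d)
    (x : (G.dat (ZMod 2) n).K.H q) : (G.edata n M hsq h).Sq q (d + 1) x =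
      hT G.phi M (n + 1) (M.T.up n j q d e ((G.edata n M hsq h).p q x)) •
        (G.trip (ZMod 2) n).iota G.fund := by
  refine ((G.mIn n h).lz e x).trans ?_
  rw [hT_apply, hup]
  refine congrArg (fun r : ZMod 2 => r • (G.trip (ZMod 2) n).iota G.fund) ?_
  refine (G.ev_tr_cl2 n _).trans ?_
  refine congrArg (fun w => hfun G.phi (n + 1) (upZ (SS.BW SS.pt n) j q d e w)) ?_
  exact ((M.e n q).apply_symm_apply _).symm

end tower

theorem iota_ne (h : hfun G.phi n = 0) : (G.trip (ZMod 2) n).iota G.fund ≠ 0 :=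
  (G.base n).iota_ne G.fund ((G.hmin_iff n).2 h)

end Geo

/-- **`EStmt`**, from the comparison of the tower with the spaces `BW_n`. -/
theorem eStmt_of (M : TowerModel)
    (hsq : ∀ (n a q q' : ℕ) (h : q + a = q') (y : M.T.H n q),
      M.e n q' (M.T.sq n a q q' h y) = sqc (SS.BW SS.pt n) q q' (M.e n q y))
    (hup : ∀ (n j q d : ℕ) (h : j + 2 * q = d) (y : M.T.H n q),
      M.e (n + 1) d (M.T.up n j q d h y) = upZ (SS.BW SS.pt n) j q d h (M.e n q y)) : EStmt M := by
  intro d N G n h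
  have h0 : hfun G.phi n = 0 := (hT_eq_zero_iff G.phi M n).1 h
  refine (G.mIn n h0).ext M.T n (M.e n) (hsq n) (hT G.phi M (n + 1)) ?_
  intro j q e y
  rw [hT_apply, hup]
  exact (G.ev_tr_cl2 n _).symm

end Vale.Agent.P263.TOP
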