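import Vale.Agent.P263.TW.PolFin
import Vale.Agent.P263.TOP.EStmt
import Vale.Agent.P263.TOP.CStmt
import Vale.Agent.P263.TOP.H.PrimThm

/-!
# P263 (helper354): the contract of Level B for the tower of the spaces `BW_n`
-/

namespace Vale.Agent.P263.TOP

open Vale.Agent.P263.TW

/-- **The contract of Level B.** -/
theorem contract : Contract towerModel where
  prim := primStmt
  ext := eStmt_of towerModel (fun n a q q' h y => towerModel_sq n a q q' h y)
    (fun n j q d h y => towerModel_up n j q d h y)
  case1 := cStmt_of towerModel (fun n j q d h y => towerModel_up n j q d h y)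
  top := topStmt_towerModel
  all := H.allStmt

end Vale.Agent.P263.TOP
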