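import Vale.Agent.P263.TI.TopDef

/-!
# P263, GLUE, level A

`SphClass T d`: the functionals `h n : H^d(BW_n) → 𝔽₂` of a spherical class, with the outputs of the
sections `E` (`ext`), `C` (`case1`) and `H` (`top`).  `AlgFacts T d`: the outputs of section `I`.

* `SphClass.trichotomy`: all `h n` vanish, or `h 1 ≠ 0` and `d + 1` is a power of two, or `h 2` is the
  first nonzero one and `d + 2` is a power of two.
* `SphClass.core`: if neither `d + 1` nor `d + 2` is a power of two then all `h n` vanish.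
-/

namespace Vale.Agent.P263.TOP

open Vale.Agent.P263.TI Vale.Agent.P263.EX.GE

/-- The functionals of a spherical class. -/
structure SphClass (T : Tower) (d : ℕ) where
  /-- the functional on `H^d(BW_n)` -/
  h : ∀ n : ℕ, T.H n d →ₗ[ZMod 2] ZMod 2
  /-- output of section `E` -/
  ext : ∀ n : ℕ, h n = 0 → ∃ (P : Psi T n (d + 1)) (F : Phi T n d P), F.phi = h (n + 1)
  /-- output of section `C` -/
  case1 : ∀ (n c : ℕ) (hc : 0 + 2 * c = d), Even c → h n = 0 →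
    ∀ y : T.H n c, h (n + 1) (T.up n 0 c d hc y) = 0
  /-- output of section `H` -/
  top : ∀ n : ℕ, (∀ i ≤ n, h i = 0) → ∃ t : Top T n d (h (n + 1)), (t.xi = 0 → h (n + 1) = 0)

/-- The outputs of section `I` (algebra). -/
structure AlgFacts (T : Tower) (d : ℕ) : Prop where
  one : ∀ (P : Psi T 0 (d + 1)) (F : Phi T 0 d P) (t : Top T 0 d F.phi), t.xi ≠ 0 →
    ∃ s : ℕ, d + 1 = 2 ^ s
  two : ∀ (P : Psi T 1 (d + 1)) (F : Phi T 1 d P) (t : Top T 1 d F.phi), t.xi ≠ 0 →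
    ∃ s : ℕ, d + 2 = 2 ^ (s + 1)
  big : ∀ (n : ℕ), 2 ≤ n → ∀ (P : Psi T n (d + 1)) (F : Phi T n d P) (t : Top T n d F.phi),
    t.xi ≠ 0 → ∃ (c : ℕ) (hc : 0 + 2 * c = d), Even c ∧
      ∃ y : T.H n c, F.phi (T.up n 0 c d hc y) ≠ 0

/-- `H^d` of a point vanishes for `d > 0`. -/
theorem tower_zero (T : Tower) {d : ℕ} (hd : 0 < d) (y : T.H 0 d) : y = 0 := by
  apply T.r_inj d
  rw [map_zero]
  have hh := T.r_hom 0 d y
  refine MvPolynomial.ext _ _ fun m => ?_
  by_contra hne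
  have h1 := hh hne
  have h2 : m = 0 := Subsingleton.elim _ _
  rw [h2, MvPolynomial.coeff_zero] at hne
  rw [h2] at h1
  simp at h1
  omega

namespace SphClass

variable {T : Tower} {d : ℕ} (X : SphClass T d)

theorem h_zero (hd : 0 < d) : X.h 0 = 0 := by
  refine LinearMap.ext fun y => ?_
  rw [tower_zero T hd y, map_zero]
  rfl

include X in
/-- the induction step for `n ≥ 2` -/
theorem step_big (A : AlgFacts T d) {n : ℕ} (hn : 2 ≤ n) (h : ∀ i ≤ n, X.h i = 0) :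
    X.h (n + 1) = 0 := by
  obtain ⟨P, F, hF⟩ := X.ext n (h n le_rfl)
  obtain ⟨t, ht⟩ := X.top n h
  by_cases hx : t.xi = 0
  · exact ht hx
  · exfalso
    obtain ⟨c, hc, hev, y, hy⟩ : ∃ (c : ℕ) (hc : 0 + 2 * c = d), Even c ∧
        ∃ y : T.H n c, F.phi (T.up n 0 c d hc y) ≠ 0 := by
      revert hF
      generalize X.h (n + 1) = f at t
      intro hF
      subst hF
      exact A.big n hn P F t hx
    apply hy
    rw [hF]
    exact X.case1 n c hc hev (h n le_rfl) y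

/-- The step at `n = 0`. -/
theorem step_one (A : AlgFacts T d) (h : X.h 0 = 0) (h1 : X.h 1 ≠ 0) : ∃ s : ℕ, d + 1 = 2 ^ s := by
  obtain ⟨P, F, hF⟩ := X.ext 0 h
  obtain ⟨t, ht⟩ := X.top 0 (by
    intro i hi
    obtain rfl : i = 0 := by omega
    exact h)
  have hx : t.xi ≠ 0 := fun hx => h1 (ht hx)
  revert hF
  generalize X.h (0 + 1) = f at t
  intro hF
  subst hF
  exact A.one P F t hx

/-- The step at `n = 1`. -/
theorem step_two (A : AlgFacts T d) (h : X.h 0 = 0) (h1 : X.h 1 = 0) (h2 : X.h 2 ≠ 0) :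
    ∃ s : ℕ, d + 2 = 2 ^ (s + 1) := by
  obtain ⟨P, F, hF⟩ := X.ext 1 h1
  obtain ⟨t, ht⟩ := X.top 1 (by
    intro i hi
    obtain rfl | rfl : i = 0 ∨ i = 1 := by omega
    · exact h
    · exact h1)
  have hx : t.xi ≠ 0 := fun hx => h2 (ht hx)
  revert hF
  generalize X.h (1 + 1) = f at t
  intro hF
  subst hF
  exact A.two P F t hx

/-- If `h 0`, `h 1` and `h 2` vanish, everything vanishes. -/
theorem all_zero (A : AlgFacts T d) (h0 : X.h 0 = 0) (h1 : X.h 1 = 0) (h2 : X.h 2 = 0) (n : ℕ) :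
    X.h n = 0 := by
  induction n using Nat.strong_induction_on with
  | _ n ih =>
    match n, ih with
    | 0, _ => exact h0
    | 1, _ => exact h1
    | 2, _ => exact h2
    | n + 3, ih => exact X.step_big A (by omega) fun i hi => ih i (by omega)

/-- **The three possibilities.** -/
theorem trichotomy (A : AlgFacts T d) (hd : 0 < d) :
    (∀ n, X.h n = 0) ∨ (X.h 0 = 0 ∧ X.h 1 ≠ 0 ∧ ∃ s : ℕ, d + 1 = 2 ^ s) ∨
      (X.h 0 = 0 ∧ X.h 1 = 0 ∧ X.h 2 ≠ 0 ∧ ∃ s : ℕ, d + 2 = 2 ^ (s + 1)) := by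
  have h0 := X.h_zero hd
  by_cases h1 : X.h 1 = 0
  · by_cases h2 : X.h 2 = 0
    · exact Or.inl (X.all_zero A h0 h1 h2)
    · exact Or.inr (Or.inr ⟨h0, h1, h2, X.step_two A h0 h1 h2⟩)
  · exact Or.inr (Or.inl ⟨h0, h1, X.step_one A h0 h1⟩)

/-- **Level A of the theorem**: outside the degrees `2^s - 1` and `2^(s+1) - 2` all functionals
vanish. -/
theorem core (A : AlgFacts T d) (hd : 0 < d) (h1 : ¬ ∃ s : ℕ, d + 1 = 2 ^ s)
    (h2 : ¬ ∃ s : ℕ, d + 2 = 2 ^ (s + 1)) (n : ℕ) : X.h n = 0 := by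
  rcases X.trichotomy A hd with h | ⟨_, _, h⟩ | ⟨_, _, _, h⟩
  · exact h n
  · exact absurd h h1
  · exact absurd h h2

/-- The first nonvanishing functional, if any, is `h 1` or `h 2`. -/
theorem all_zero_of (A : AlgFacts T d) (hd : 0 < d) (h1 : X.h 1 = 0) (h2 : X.h 2 = 0) (n : ℕ) :
    X.h n = 0 := X.all_zero A (X.h_zero hd) h1 h2 n

end SphClass

end Vale.Agent.P263.TOP
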