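import Vale.Agent.P263.TOP.GlueAlg
import Vale.Agent.P263.TI.Uniq

/-!
# P263, GLUE, level A (helper51): dimension at most one

`SphClass.sum_zero`: the sum of two spherical classes which do not vanish is zero. So in every
degree the nonzero spherical classes have the same functionals: the image of the Hurewicz map has
dimension at most one. `SphClass.val_one`, `SphClass.val_two`: the leading functional takes the
value one on the class which restricts to `q_0 ^ d` (`d + 1 = 2 ^ s`), resp. on the classes which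
restrict to `q_1 ^ c` (`d = 2 c`, `c + 1 = 2 ^ s`).
-/

namespace Vale.Agent.P263.TOP

open Vale.Agent.P263.TI Vale.Agent.P263.LZ Vale.Agent.P263.EX Vale.Agent.P263.EX.GE

lemma pow_two_succ {d a b : ℕ} (hd : 0 < d) (h1 : d + 1 = 2 ^ a) (h2 : d + 2 = 2 ^ (b + 1)) :
    False := by
  rcases a with _ | a
  · rw [pow_zero] at h1; omega
  · rw [pow_succ] at h1 h2; omega

namespace SphClass

variable {T : Tower} {d : ℕ} (X : SphClass T d)

/-- the functional `xi` for `n = 0` -/
theorem top_one (h0 : X.h 0 = 0) : ∃ t : Top T 0 d (X.h 1), (t.xi = 0 → X.h 1 = 0) :=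
  X.top 0 (by
    intro i hi
    obtain rfl : i = 0 := by omega
    exact h0)

/-- the functional `xi` for `n = 1`; it vanishes on the multiples of `q_0` -/
theorem top_two (h0 : X.h 0 = 0) (h1 : X.h 1 = 0) : ∃ t : Top T 1 d (X.h 2),
    (t.xi = 0 → X.h 2 = 0) ∧ ∀ G : D 2, t.xi (q 2 0 * G) = 0 := by
  obtain ⟨P, F, hF⟩ := X.ext 1 h1
  obtain ⟨t, ht⟩ := X.top 1 (by
    intro i hi
    obtain rfl | rfl : i = 0 ∨ i = 1 := by omega
    · exact h0
    · exact h1)
  refine ⟨t, ht, ?_⟩
  clear ht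
  revert hF
  generalize X.h (1 + 1) = f at t
  intro hF
  subst hF
  exact fun G => xi_q0 le_rfl P F t G

/-- The leading functional in degree `2^s - 1`. -/
theorem val_one (hd : 0 < d) (h1 : X.h 1 ≠ 0) : (∃ s : ℕ, d + 1 = 2 ^ s) ∧
    ∀ w : T.H 1 d, T.r 1 d w = io 1 (q 1 0 ^ d) → X.h 1 w = 1 := by
  have h0 := X.h_zero hd
  refine ⟨X.step_one (algFacts T d) h0 h1, fun w hw => ?_⟩
  obtain ⟨t, ht⟩ := X.top_one h0
  rw [t.phi_io w _ hw]
  exact t.xi_one_val (fun h => h1 (ht h))

/-- The leading functional in degree `2^(s+1) - 2`. -/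
theorem val_two (hd : 0 < d) (h1 : X.h 1 = 0) (h2 : X.h 2 ≠ 0) :
    ∃ c s : ℕ, d = 2 * c ∧ c + 1 = 2 ^ s ∧
      (∀ w : T.H 2 d, T.r 2 d w = io 2 (q 2 1 ^ c) → X.h 2 w = 1) ∧
      ∀ (w : T.H 2 d) (G : D 2), T.r 2 d w = io 2 (q 2 0 * G) → X.h 2 w = 0 := by
  have h0 := X.h_zero hd
  obtain ⟨t, ht, hq⟩ := X.top_two h0 h1
  have hxi : t.xi ≠ 0 := fun h => h2 (ht h)
  obtain ⟨c, hc⟩ := t.even hq hxi
  subst hc
  obtain ⟨s, hs⟩ := X.step_two (algFacts T (2 * c)) h0 h1 h2
  refine ⟨c, s, rfl, by rw [pow_succ] at hs; omega, fun w hw => ?_, fun w G hw => ?_⟩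
  · rw [t.phi_io w _ hw]
    exact t.xi_two_val hq hxi
  · rw [t.phi_io w _ hw]
    exact hq G

/-- **Dimension at most one**: the sum of two nonzero spherical classes is zero. -/
theorem sum_zero (X' X'' : SphClass T d) (hd : 0 < d) (hadd : ∀ n, X''.h n = X.h n + X'.h n)
    (hX : ∃ n, X.h n ≠ 0) (hX' : ∃ n, X'.h n ≠ 0) (n : ℕ) : X''.h n = 0 := by
  obtain ⟨m, hm⟩ := hX
  obtain ⟨m', hm'⟩ := hX'
  rcases X.cases hd with h | ⟨h0, h1, s, hs⟩ | ⟨h0, h1, h2, s, hs⟩
  · exact absurd (h m) hm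
  · rcases X'.cases hd with h' | ⟨h0', h1', s', hs'⟩ | ⟨h0', h1', h2', s', hs'⟩
    · exact absurd (h' m') hm'
    · -- both in length one
      obtain ⟨t, ht⟩ := X.top_one h0
      obtain ⟨t', ht'⟩ := X'.top_one h0'
      have h0'' : X''.h 0 = 0 := by rw [hadd, h0, h0', add_zero]
      obtain ⟨t'', ht''⟩ := X''.top_one h0''
      have hx : t.xi ≠ 0 := fun h => h1 (ht h)
      have hx' : t'.xi ≠ 0 := fun h => h1' (ht' h)
      have h1'' : X''.h 1 = 0 := by
        apply ht''
        have key : ∀ (f : T.H 1 d →ₗ[ZMod 2] ZMod 2) (u : Top T 0 d f), f = X.h 1 + X'.h 1 →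
            u.xi = 0 := by
          intro f u hf
          subst hf
          rw [Top.xi_add t t' u, Top.xi_one_uniq t t' hx hx']
          refine LinearMap.ext fun x => ?_
          rw [LinearMap.add_apply, LinearMap.zero_apply]
          exact CharTwo.add_self_eq_zero _
        exact key _ t'' (hadd 1)
      refine X''.eq_zero_of hd h1'' ?_ n
      by_contra h2''
      obtain ⟨s'', hs''⟩ := X''.step_two (algFacts T d) h0'' h1'' h2''
      exact pow_two_succ hd hs hs''
    · exact (pow_two_succ hd hs hs').elim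
  · rcases X'.cases hd with h' | ⟨h0', h1', s', hs'⟩ | ⟨h0', h1', h2', s', hs'⟩
    · exact absurd (h' m') hm'
    · exact (pow_two_succ hd hs' hs).elim
    · -- both in length two
      obtain ⟨t, ht, hq⟩ := X.top_two h0 h1
      obtain ⟨t', ht', hq'⟩ := X'.top_two h0' h1'
      have h0'' : X''.h 0 = 0 := by rw [hadd, h0, h0', add_zero]
      have h1'' : X''.h 1 = 0 := by rw [hadd, h1, h1', add_zero]
      obtain ⟨t'', ht'', _⟩ := X''.top_two h0'' h1''
      have hx : t.xi ≠ 0 := fun h => h2 (ht h)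
      have hx' : t'.xi ≠ 0 := fun h => h2' (ht' h)
      refine X''.eq_zero_of hd h1'' ?_ n
      apply ht''
      have key : ∀ (f : T.H 2 d →ₗ[ZMod 2] ZMod 2) (u : Top T 1 d f), f = X.h 2 + X'.h 2 →
          u.xi = 0 := by
        intro f u hf
        subst hf
        rw [Top.xi_add t t' u, Top.xi_two_uniq t t' hq hq' hx hx']
        refine LinearMap.ext fun x => ?_
        rw [LinearMap.add_apply, LinearMap.zero_apply]
        exact CharTwo.add_self_eq_zero _
      exact key _ t'' (hadd 2)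

end SphClass

end Vale.Agent.P263.TOP
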