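import Vale.Agent.P263.TOP.Tel
import Mathlib.AlgebraicTopology.SingularHomology.Basic
import Mathlib.CategoryTheory.Limits.Preserves.SigmaConst
import Mathlib.Algebra.Category.ModuleCat.FilteredColimits
import Mathlib.Algebra.Category.ModuleCat.Abelian
import Mathlib.Algebra.Category.ModuleCat.Colimits
import Mathlib.Algebra.Homology.ShortComplex.ModuleCat

/-!
# P263, topology: homology of sequential colimits
-/

open CategoryTheory Limits Topology TopCat

namespace Vale.Agent.P263.TOP

universe u

variable {k : Type} [CommRing k]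

/-! ### Homology classes of complexes of modules -/

section elts

variable {ι : Type*} {c : ComplexShape ι} (K : HomologicalComplex (ModuleCat.{0} k) c)

theorem homologyπ_surjective (i : ι) : Function.Surjective (K.homologyπ i) :=
  (ModuleCat.epi_iff_surjective _).1 inferInstance

theorem iCycles_injective (i : ι) : Function.Injective (K.iCycles i) :=
  (ModuleCat.mono_iff_injective _).1 inferInstance

/-- every element killed by the differential is a cycle -/
theorem exists_cycle {i j : ι} (hj : c.next i = j) (x : K.X i) (hx : K.d i j x = 0) :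
    ∃ z : K.cycles i, K.iCycles i z = x := by
  have h1 := ShortComplex.exact_of_f_is_kernel (ShortComplex.mk (K.iCycles i) (K.d i j)
    (K.iCycles_d i j)) (K.cyclesIsKernel i j hj)
  rw [ShortComplex.moduleCat_exact_iff] at h1
  exact h1 x hx

theorem d_iCycles (i j : ι) (z : K.cycles i) : K.d i j (K.iCycles i z) = 0 := by
  have h1 := K.iCycles_d i j
  have h2 := ConcreteCategory.congr_hom h1 z
  exact h2

theorem homologyπ_eq_zero_iff {i j : ι} (hi : c.prev j = i) (z : K.cycles j) :
    K.homologyπ j z = 0 ↔ ∃ y : K.X i, K.d i j y = K.iCycles j z := by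
  have h1 := ShortComplex.exact_of_g_is_cokernel (ShortComplex.mk (K.toCycles i j) (K.homologyπ j)
    (K.toCycles_comp_homologyπ i j)) (K.homologyIsCokernel i j hi)
  rw [ShortComplex.moduleCat_exact_iff] at h1
  have h2 : ∀ y, K.iCycles j (K.toCycles i j y) = K.d i j y := fun y =>
    ConcreteCategory.congr_hom (K.toCycles_i i j) y
  constructor
  · intro h
    obtain ⟨y, hy⟩ := h1 z h
    refine ⟨y, ?_⟩
    rw [← h2]
    exact congrArg _ hy
  · rintro ⟨y, hy⟩
    have h3 : K.toCycles i j y = z := iCycles_injective K j (by rw [h2, hy])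
    rw [← h3]
    exact ConcreteCategory.congr_hom (K.toCycles_comp_homologyπ i j) y

end elts

/-! ### Chains preserve colimits -/

section chains

variable (A : ModuleCat.{0} k)

/-- the chain groups -/
noncomputable abbrev chX (q : ℕ) : SSet.{0} ⥤ ModuleCat.{0} k :=
  (SSet.chainComplexFunctor (ModuleCat.{0} k)).obj A ⋙ HomologicalComplex.eval _ _ q

instance (q : ℕ) : PreservesColimitsOfSize.{0, 0} (chX A q) :=
  inferInstanceAs (PreservesColimitsOfSize.{0, 0}
    ((evaluation SimplexCategoryᵒᵖ (Type 0)).obj (Opposite.op (SimplexCategory.mk q)) ⋙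
      sigmaConst.{0}.obj A))

variable {G : ℕ ⥤ SSet.{0}} {c : Cocone G} (hc : IsColimit c)

/-- a map of simplicial sets on chains -/
noncomputable abbrev chm {X Y : SSet.{0}} (f : X ⟶ Y) (q : ℕ) :
    (X.chainComplex A).X q ⟶ (Y.chainComplex A).X q :=
  (SSet.chainComplexMap f A).f q

theorem chm_comp_apply {X Y Z : SSet.{0}} (f : X ⟶ Y) (g : Y ⟶ Z) (q : ℕ)
    (x : (X.chainComplex A).X q) : chm A (f ≫ g) q x = chm A g q (chm A f q x) := by
  have h : chm A (f ≫ g) q = chm A f q ≫ chm A g q := (chX A q).map_comp f g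
  exact ConcreteCategory.congr_hom h x

theorem chm_d {X Y : SSet.{0}} (f : X ⟶ Y) (p q : ℕ) (x : (X.chainComplex A).X p) :
    (Y.chainComplex A).d p q (chm A f p x) = chm A f q ((X.chainComplex A).d p q x) :=
  ConcreteCategory.congr_hom ((SSet.chainComplexMap f A).comm p q) x

include hc in
theorem exists_chain (q : ℕ) (x : (c.pt.chainComplex A).X q) :
    ∃ (n : ℕ) (y : ((G.obj n).chainComplex A).X q), chm A (c.ι.app n) q y = x := by
  obtain ⟨n, y, hy⟩ := Types.jointly_surjective_of_isColimit
    (isColimitOfPreserves (chX A q ⋙ forget (ModuleCat.{0} k)) hc) x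
  exact ⟨n, y, hy⟩

include hc in
theorem exists_chain_eq {i : ℕ} (q : ℕ) (x y : ((G.obj i).chainComplex A).X q)
    (h : chm A (c.ι.app i) q x = chm A (c.ι.app i) q y) :
    ∃ (j : ℕ) (hj : i ≤ j), chm A (G.map (homOfLE hj)) q x = chm A (G.map (homOfLE hj)) q y := by
  obtain ⟨j, f, g, hfg⟩ := (Types.FilteredColimit.isColimit_eq_iff
    (G ⋙ chX A q ⋙ forget (ModuleCat.{0} k))
    (isColimitOfPreserves (chX A q ⋙ forget (ModuleCat.{0} k)) hc)).1 h
  refine ⟨j, leOfHom f, ?_⟩
  have hg : g = f := Subsingleton.elim _ _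
  subst hg
  exact hfg

theorem leg_chm {i j : ℕ} (h : i ≤ j) (q : ℕ) (x : ((G.obj i).chainComplex A).X q) :
    chm A (c.ι.app j) q (chm A (G.map (homOfLE h)) q x) = chm A (c.ι.app i) q x := by
  rw [← chm_comp_apply, c.w]

/-- homology of simplicial sets with coefficients in `A` -/
noncomputable abbrev HS (X : SSet.{0}) (d : ℕ) : ModuleCat.{0} k := X.homology A d

/-- a map of simplicial sets on homology -/
noncomputable abbrev hom {X Y : SSet.{0}} (f : X ⟶ Y) (d : ℕ) : HS A X d ⟶ HS A Y d :=
  SSet.homologyMap f A d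

theorem hom_π {X Y : SSet.{0}} (f : X ⟶ Y) (d : ℕ) (z : (X.chainComplex A).cycles d)
    (w : (Y.chainComplex A).cycles d)
    (h : (Y.chainComplex A).iCycles d w = chm A f d ((X.chainComplex A).iCycles d z)) :
    hom A f d ((X.chainComplex A).homologyπ d z) = (Y.chainComplex A).homologyπ d w := by
  have h1 : HomologicalComplex.cyclesMap (SSet.chainComplexMap f A) d z = w := by
    apply iCycles_injective
    rw [h]
    exact ConcreteCategory.congr_hom
      (HomologicalComplex.cyclesMap_i (SSet.chainComplexMap f A) d) z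
  rw [← h1]
  exact ConcreteCategory.congr_hom
    (HomologicalComplex.homologyπ_naturality (SSet.chainComplexMap f A) d) z

include hc in
/-- **Homology classes of the colimit come from a stage.** -/
theorem exists_class (d : ℕ) (x : HS A c.pt d) :
    ∃ (n : ℕ) (y : HS A (G.obj n) d), hom A (c.ι.app n) d y = x := by
  obtain ⟨z, rfl⟩ := homologyπ_surjective _ d x
  obtain ⟨n, y, hy⟩ := exists_chain A hc d ((c.pt.chainComplex A).iCycles d z)
  have h1 : chm A (c.ι.app n) ((ComplexShape.down ℕ).next d)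
      (((G.obj n).chainComplex A).d d ((ComplexShape.down ℕ).next d) y) =
      chm A (c.ι.app n) ((ComplexShape.down ℕ).next d) 0 := by
    rw [← chm_d, hy, map_zero]
    exact d_iCycles (c.pt.chainComplex A) _ _ z
  obtain ⟨m, hm, h2⟩ := exists_chain_eq A hc _ _ _ h1
  rw [map_zero, ← chm_d] at h2
  obtain ⟨w, hw⟩ := exists_cycle _ rfl _ h2
  refine ⟨m, ((G.obj m).chainComplex A).homologyπ d w, hom_π A _ d w z ?_⟩
  rw [hw, leg_chm, hy]

include hc in
/-- **A homology class of a stage that dies in the colimit dies in a later stage.** -/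
theorem exists_stage_zero (d : ℕ) {n : ℕ} (x : HS A (G.obj n) d)
    (hx : hom A (c.ι.app n) d x = 0) :
    ∃ (m : ℕ) (h : n ≤ m), hom A (G.map (homOfLE h)) d x = 0 := by
  obtain ⟨z, rfl⟩ := homologyπ_surjective _ d x
  obtain ⟨w, hw⟩ := exists_cycle (c.pt.chainComplex A) (i := d) rfl
    (chm A (c.ι.app n) d (((G.obj n).chainComplex A).iCycles d z))
    (by rw [chm_d, d_iCycles, map_zero])
  rw [hom_π A _ d z w hw, homologyπ_eq_zero_iff _ rfl] at hx
  obtain ⟨y, hy⟩ := hx
  rw [hw] at hy
  obtain ⟨m, y', rfl⟩ := exists_chain A hc _ y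
  rw [chm_d] at hy
  obtain ⟨s, hns, hms⟩ : ∃ s, n ≤ s ∧ m ≤ s := ⟨max n m, le_max_left _ _, le_max_right _ _⟩
  rw [← leg_chm A hns, ← leg_chm A hms] at hy
  obtain ⟨t, hst, ht⟩ := exists_chain_eq A hc _ _ _ hy
  refine ⟨t, hns.trans hst, ?_⟩
  obtain ⟨w', hw'⟩ := exists_cycle ((G.obj t).chainComplex A) (i := d) rfl
    (chm A (G.map (homOfLE (hns.trans hst))) d (((G.obj n).chainComplex A).iCycles d z))
    (by rw [chm_d, d_iCycles, map_zero])
  rw [hom_π A _ d z w' hw', homologyπ_eq_zero_iff _ rfl]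
  refine ⟨chm A (G.map (homOfLE (hms.trans hst))) _ y', ?_⟩
  have e1 : ∀ {a b e : ℕ} (h1 : a ≤ b) (h2 : b ≤ e), G.map (homOfLE (h1.trans h2)) =
      G.map (homOfLE h1) ≫ G.map (homOfLE h2) := fun h1 h2 => by
    rw [← G.map_comp]; rfl
  rw [hw', e1 hns hst, e1 hms hst, chm_comp_apply, chm_comp_apply, chm_d, chm_d, ← ht]

end chains

/-! ### Spaces -/

section spaces

variable (A : ModuleCat.{0} k) {F : ℕ ⥤ TopCat.{0}}
  (hF : ∀ n : ℕ, IsClosedEmbedding (F.map (homOfLE (Nat.le_succ n))))
  (hT : ∀ n, T1Space (F.obj n)) {c : Cocone F} (hc : IsColimit c)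

/-- singular homology with coefficients in `A` -/
noncomputable abbrev SH (d : ℕ) : TopCat.{0} ⥤ ModuleCat.{0} k :=
  (AlgebraicTopology.singularHomologyFunctor (ModuleCat.{0} k) d).obj A

include hF hT hc in
/-- **Singular homology classes of the colimit come from a stage.** -/
theorem exists_SH (d : ℕ) (x : (SH A d).obj c.pt) :
    ∃ (n : ℕ) (y : (SH A d).obj (F.obj n)), (SH A d).map (c.ι.app n) y = x := by
  exact exists_class A (isColimitToSSet hF hT hc) d x

include hF hT hc in
/-- **A singular homology class that dies in the colimit dies in a later stage.** -/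
theorem exists_SH_zero (d : ℕ) {n : ℕ} (x : (SH A d).obj (F.obj n))
    (hx : (SH A d).map (c.ι.app n) x = 0) :
    ∃ (m : ℕ) (h : n ≤ m), (SH A d).map (F.map (homOfLE h)) x = 0 :=
  exists_stage_zero A (isColimitToSSet hF hT hc) d x hx

end spaces

end Vale.Agent.P263.TOP
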