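import Vale.Agent.P263.TOP.LevelB
import Vale.Agent.P263.TOP.GlueUniq

/-!
# P263, GLUE, level B (helper51): leading terms and dimension at most one

* `SphClass.up_two`: if `h 1 = 0` and `h 2 ≠ 0` then `d = 2 c`, `c + 1 = 2 ^ s` and `h 2` takes the
  value one on `P(U)` if `U` restricts to `q_0 ^ c` (`U = v ^ c`).
* `Contract.lead_one`, `Contract.lead_two`: the same for `Geo`.
* `Contract.phi_unique`: in every degree there is at most one nonzero functional `G.phi`.
-/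

namespace Vale.Agent.P263.TOP

open Vale.Agent.P263.S Vale.Agent.P263.E Vale.Agent.P263.TI Vale.Agent.P263.TOP.H
open Vale.Agent.P263.LZ Vale.Agent.P263.EX Vale.Agent.P263.EX.GE

namespace SphClass

variable {T : Tower} {d : ℕ} (X : SphClass T d)

/-- The leading functional in degree `2^(s+1) - 2` is one on `P (v ^ c)`. -/
theorem up_two (hd : 0 < d) (h1 : X.h 1 = 0) (h2 : X.h 2 ≠ 0) :
    ∃ (c s : ℕ) (hc : 0 + 2 * c = d), c + 1 = 2 ^ s ∧
      ∀ U : T.H 1 c, T.r 1 c U = io 1 (q 1 0 ^ c) → X.h 2 (T.up 1 0 c d hc U) = 1 := by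
  have h0 := X.h_zero hd
  obtain ⟨t, ht, hq⟩ := X.top_two h0 h1
  have hxi : t.xi ≠ 0 := fun h => h2 (ht h)
  obtain ⟨c, hc⟩ := t.even hq hxi
  subst hc
  obtain ⟨s, hs⟩ := X.step_two (algFacts T (2 * c)) h0 h1 h2
  refine ⟨c, s, Nat.zero_add _, by rw [pow_succ] at hs; omega, fun U hU => ?_⟩
  have hY : Hom 1 c (q 1 0 ^ c) := by
    have := (Hom.q 1 0).pow c
    refine this.congr ?_
    push_cast
    ring
  rw [t.phi_up0 hq (Nat.zero_add _) U _ hY hU, Top.y0_apply, map_pow, sh_q]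
  exact t.xi_two_val hq hxi

end SphClass

namespace Contract

variable {M : TowerModel} (K : Contract M) {d k : ℕ} (G : Geo d (2 ^ k))

include K in
theorem exists_ne (h : G.phi ≠ 0) : ∃ n, (K.sphClass G).h n ≠ 0 := by
  by_contra hne
  push Not at hne
  exact h (K.eq_zero_of_hfun G fun n => (hT_eq_zero_iff G.phi M n).1 (hne n))

include K in
/-- The leading functional in degree `2^s - 1`: it is one on `v ^ d`. -/
theorem lead_one (h1 : hfun G.phi 1 ≠ 0) : (∃ s : ℕ, d + 1 = 2 ^ s) ∧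
    ∀ w : M.T.H 1 d, M.T.r 1 d w = io 1 (q 1 0 ^ d) → hfun G.phi 1 (M.e 1 d w) = 1 :=
  (K.sphClass G).val_one G.dpos fun h => h1 ((hT_eq_zero_iff G.phi M 1).1 h)

include K in
/-- The leading functional in degree `2^(s+1) - 2`: it is one on `P (v ^ c)`, on the classes which
restrict to `q_1 ^ c`, and zero on the classes which restrict to multiples of `q_0`. -/
theorem lead_two (h1 : hfun G.phi 1 = 0) (h : G.phi ≠ 0) :
    ∃ (c s : ℕ) (hc : 0 + 2 * c = d), c + 1 = 2 ^ s ∧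
      (∀ U : M.T.H 1 c, M.T.r 1 c U = io 1 (q 1 0 ^ c) →
        hfun G.phi 2 (M.e 2 d (M.T.up 1 0 c d hc U)) = 1) ∧
      (∀ w : M.T.H 2 d, M.T.r 2 d w = io 2 (q 2 1 ^ c) → hfun G.phi 2 (M.e 2 d w) = 1) ∧
      ∀ (w : M.T.H 2 d) (g : D 2), M.T.r 2 d w = io 2 (q 2 0 * g) →
        hfun G.phi 2 (M.e 2 d w) = 0 := by
  have h1' : (K.sphClass G).h 1 = 0 := (hT_eq_zero_iff G.phi M 1).2 h1
  have h2 : (K.sphClass G).h 2 ≠ 0 := by
    intro h2
    obtain ⟨n, hn⟩ := K.exists_ne G h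
    exact hn ((K.sphClass G).eq_zero_of G.dpos h1' h2 n)
  obtain ⟨c, s, hc, hs, hU⟩ := (K.sphClass G).up_two G.dpos h1' h2
  obtain ⟨c', s', hc', hs', hV, hW⟩ := (K.sphClass G).val_two G.dpos h1' h2
  obtain rfl : c' = c := by omega
  exact ⟨c', s, hc, hs, hU, hV, hW⟩

include K in
/-- **Dimension at most one at level B.** -/
theorem phi_unique (G' : Geo d (2 ^ k)) (G'' : Geo d (2 ^ k))
    (hadd : G''.phi = G.phi + G'.phi) (h : G.phi ≠ 0) (h' : G'.phi ≠ 0) : G.phi = G'.phi := by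
  have h3 : G''.phi = 0 := by
    refine K.eq_zero_of_hfun G'' fun n => (hT_eq_zero_iff G''.phi M n).1 ?_
    refine SphClass.sum_zero (K.sphClass G) (K.sphClass G') (K.sphClass G'') G.dpos (fun n => ?_)
      (K.exists_ne G h) (K.exists_ne G' h') n
    refine LinearMap.ext fun y => ?_
    show G''.phi _ = G.phi _ + G'.phi _
    rw [hadd, LinearMap.add_apply]
  rw [h3] at hadd
  have h4 : G.phi + G'.phi + G'.phi = G'.phi := by rw [← hadd, zero_add]
  rw [← h4, add_assoc]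
  refine LinearMap.ext fun y => ?_
  rw [LinearMap.add_apply, LinearMap.add_apply, CharTwo.add_self_eq_zero, add_zero]

end Contract

end Vale.Agent.P263.TOP
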