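import Vale.Agent.P263.TOP.LevelB
import Vale.Agent.P263.GB.MapTel

/-!
# P263, GLUE: the geometric data of a span, evaluation on one chain

Let `e : E → Gam N` and `b : E → X` be isomorphisms on cohomology in the range and `α : A → X` a
sphere with fundamental cycle `σ`.  `exists_geo_span` : there are `G : Geo d N` and a cycle `ξ` of
`E` with `b_* ξ` homologous to `α_* σ` such that `G.phi (cls x)` is the value of `e^* x` on `ξ`.
-/

noncomputable section

namespace Vale.Agent.P263.TOP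

open Vale.Agent.P263.S Vale.Agent.P263.E Vale.Agent.P263.TI Vale.Agent.P263.TOP.H
open Vale.Agent.P263.G Vale.Agent.P263.G2 Vale.Agent.P263.GB

/-- the two ends of `C × JJ` -/
def endHtp (C : SS) : SS.Htp C (C.prod JJ) where
  h _ χ x := (x, fun v => decide (χ v = 1))
  nat _ _ _ := rfl

theorem endHtp_e0 (C : SS) : (endHtp C).e0 = Glue.inE C false := by
  refine SS.Map.ext fun p x => Prod.ext rfl (funext fun v => ?_)
  show decide (c0 p v = 1) = false
  rw [c0_val]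
  rfl

theorem endHtp_e1 (C : SS) : (endHtp C).e1 = Glue.inE C true := by
  refine SS.Map.ext fun p x => Prod.ext rfl (funext fun v => ?_)
  show decide (c1 p v = 1) = true
  rw [c1_val]
  rfl

/-- the two maps to the double mapping cylinder agree in cohomology -/
theorem mapH_inX_inY {R : Type} [CommRing R] {X Y C : SS} (f : SS.Map C X) (g : SS.Map C Y) (n : ℕ)
    (w : (SS.F R (Glue.W f g)).H n) :
    (f.pull (R := R)).mapH n (((Glue.inX f g).pull (R := R)).mapH n w) =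
      (g.pull (R := R)).mapH n (((Glue.inY f g).pull (R := R)).mapH n w) := by
  rw [← Hom.mapH_comp, ← Hom.mapH_comp, ← SS.Map.pull_comp, ← SS.Map.pull_comp,
    ← Glue.inC_false, ← Glue.inC_true, SS.Map.pull_comp, SS.Map.pull_comp, Hom.mapH_comp,
    Hom.mapH_comp, ← endHtp_e0, ← endHtp_e1]
  exact ((endHtp C).mapH_eq n _).symm

section ev

variable {k : Type} [Field k] {X : SS} {n : ℕ}

theorem ev_isBd {c : (SS.F k X).obj n} (hc : c ∈ (SS.F k X).Z n) {w : Chn k X n} (hw : IsBd w) :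
    ev c w = 0 := by
  obtain ⟨u, rfl⟩ := hw
  exact mem_Z_iff.1 hc u

theorem ev_eq_of_isBd {c : (SS.F k X).obj n} (hc : c ∈ (SS.F k X).Z n) {v w : Chn k X n}
    (hw : IsBd (v - w)) : ev c v = ev c w := by
  have h := ev_isBd hc hw
  rwa [map_sub, sub_eq_zero] at h

theorem ev_eq_of_cls {c c' : (SS.F k X).Z n} (h : (SS.F k X).cls n c = (SS.F k X).cls n c')
    {w : Chn k X n} (hw : IsCyc n w) : ev c.1 w = ev c'.1 w := by
  have h1 := mem_Bd_iff.1 (CosMod.cls_eq_iff.1 h) w hw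
  rwa [ev_sub, sub_eq_zero] at h1

theorem ev_mapZ {Y : SS} (f : SS.Map X Y) (c : (SS.F k Y).Z n) (w : Chn k X n) :
    ev ((f.pull (R := k)).mapZ n c).1 w = ev c.1 (push k f n w) :=
  (ev_push f c.1 w).symm

theorem ev_mapZ_comp {Y W : SS} (g : SS.Map Y W) (f : SS.Map X Y) (c : (SS.F k W).Z n)
    (w : Chn k X n) : ev (((g.comp f).pull (R := k)).mapZ n c).1 w =
      ev ((g.pull (R := k)).mapZ n c).1 (push k f n w) := by
  rw [ev_mapZ, ev_mapZ, push_comp]

end ev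

/-- The geometric data of a cospan which is compatible with a span. -/
theorem exists_geo_cospan {E X A Z : SS} {d N D : ℕ} (hN : 3 ≤ N) (hD : d + 2 < D)
    (e : SS.Map E (Gam N)) (b : SS.Map E X) (hb : IsoUpTo (ZMod 2) D b)
    (i : SS.Map (Gam N) Z) (hi : IsoUpTo (ZMod 2) D i) (j : SS.Map X Z)
    (hj : IsoUpTo (ZMod 2) D j)
    (hij : ∀ w : Co Z d, (e.pull (R := ZMod 2)).mapH d ((i.pull (R := ZMod 2)).mapH d w) =
      (b.pull (R := ZMod 2)).mapH d ((j.pull (R := ZMod 2)).mapH d w))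
    (hA : SphLike (ZMod 2) A d) (fund : Co A d ≃ₗ[ZMod 2] ZMod 2)
    (σ : Chn (ZMod 2) A d) (hσ : IsCyc d σ)
    (hfund : ∀ z : (SS.F (ZMod 2) A).Z d, fund ((SS.F (ZMod 2) A).cls d z) = ev z.1 σ)
    (α : SS.Map A X) :
    ∃ G : Geo d N, (G.phi = 0 ↔ ∀ y : Co X d, α.pull.mapH d y = 0) ∧
      ∃ ξ : Chn (ZMod 2) E d, IsCyc d ξ ∧
        IsBd (push (ZMod 2) α d σ - push (ZMod 2) b d ξ) ∧
        ∀ x : (SS.F (ZMod 2) (Gam N)).Z d,
          G.phi ((SS.F (ZMod 2) (Gam N)).cls d x) = ev ((e.pull (R := ZMod 2)).app d x.1) ξ := by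
  let G : Geo d N :=
    { hN := hN
      Z := Z
      A := A
      D := d + 2
      hD := le_rfl
      c := i
      a := j.comp α
      hc := fun n hn => ⟨hi.1 n (by omega), hi.2 n (by omega)⟩
      hA := hA
      fund := fund }
  have hjs := hj.2 d (by omega)
  refine ⟨G, ?_, ?_⟩
  · rw [G.phi_eq_zero_iff]
    constructor
    · intro h y
      obtain ⟨z, rfl⟩ := hjs y
      rw [← Hom.mapH_comp]
      exact h z
    · intro h z
      show ((j.comp α).pull).mapH d z = 0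
      rw [SS.Map.pull_comp, Hom.mapH_comp, h]
  · obtain ⟨ξ, hξ, hbd⟩ := (hSurj_iff.2 (hb.1 d (by omega))) _ (hσ.push α)
    refine ⟨ξ, hξ, hbd, fun x => ?_⟩
    obtain ⟨y, hy⟩ := hi.2 d (by omega) ((SS.F (ZMod 2) (Gam N)).cls d x)
    obtain ⟨y, rfl⟩ := (SS.F (ZMod 2) Z).cls_surjective d y
    have h1 : G.phi ((SS.F (ZMod 2) (Gam N)).cls d x) =
        ev ((((j.comp α).pull (R := ZMod 2)).mapZ d y).1) σ := by
      rw [← hy]
      refine (G.phi_res _).trans ?_
      exact hfund _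
    have h2 : ev ((((j.comp α).pull (R := ZMod 2)).mapZ d y).1) σ =
        ev (((j.pull (R := ZMod 2)).mapZ d y).1) (push (ZMod 2) α d σ) :=
      ev_mapZ_comp j α y σ
    have h3 : ev (((j.pull (R := ZMod 2)).mapZ d y).1) (push (ZMod 2) α d σ) =
        ev (((j.pull (R := ZMod 2)).mapZ d y).1) (push (ZMod 2) b d ξ) :=
      ev_eq_of_isBd ((j.pull (R := ZMod 2)).mapZ d y).2 hbd
    have h4 : ev (((j.pull (R := ZMod 2)).mapZ d y).1) (push (ZMod 2) b d ξ) =
        ev (((b.pull (R := ZMod 2)).mapZ d ((j.pull (R := ZMod 2)).mapZ d y)).1) ξ :=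
      (ev_mapZ b _ ξ).symm
    have h5 : (SS.F (ZMod 2) E).cls d
          ((b.pull (R := ZMod 2)).mapZ d ((j.pull (R := ZMod 2)).mapZ d y)) =
        (SS.F (ZMod 2) E).cls d ((e.pull (R := ZMod 2)).mapZ d x) := by
      have h6 := hij ((SS.F (ZMod 2) Z).cls d y)
      rw [hy] at h6
      exact h6.symm
    rw [h1, h2, h3, h4, ev_eq_of_cls h5 hξ]
    rfl

/-- **The geometric data of a span.** -/
theorem exists_geo_span {E X A : SS} {d N D : ℕ} (hN : 3 ≤ N) (hD : d + 2 < D)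
    (e : SS.Map E (Gam N)) (he : IsoUpTo (ZMod 2) D e) (b : SS.Map E X)
    (hb : IsoUpTo (ZMod 2) D b) (hA : SphLike (ZMod 2) A d) (fund : Co A d ≃ₗ[ZMod 2] ZMod 2)
    (σ : Chn (ZMod 2) A d) (hσ : IsCyc d σ)
    (hfund : ∀ z : (SS.F (ZMod 2) A).Z d, fund ((SS.F (ZMod 2) A).cls d z) = ev z.1 σ)
    (α : SS.Map A X) :
    ∃ G : Geo d N, (G.phi = 0 ↔ ∀ y : Co X d, α.pull.mapH d y = 0) ∧
      ∃ ξ : Chn (ZMod 2) E d, IsCyc d ξ ∧
        IsBd (push (ZMod 2) α d σ - push (ZMod 2) b d ξ) ∧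
        ∀ x : (SS.F (ZMod 2) (Gam N)).Z d,
          G.phi ((SS.F (ZMod 2) (Gam N)).cls d x) = ev ((e.pull (R := ZMod 2)).app d x.1) ξ :=
  exists_geo_cospan hN hD e b hb (Glue.inX e b) (isoUpTo_inX e hb) (Glue.inY e b)
    (isoUpTo_inY b he) (mapH_inX_inY e b d) hA fund σ hσ hfund α

end Vale.Agent.P263.TOP
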