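import Mathlib.AlgebraicTopology.SingularSet
import Mathlib.CategoryTheory.Limits.Types.Filtered
import Mathlib.Topology.Category.TopCat.Limits.Basic

/-!
# P263, topology: sequential colimits of closed embeddings

`F : ℕ ⥤ TopCat`, all maps `F n ⟶ F (n + 1)` closed embeddings, `c` a colimit cocone.

* `isClosedEmbedding_leg` : the legs are closed embeddings;
* `exists_range_subset` : the image of a compact space is contained in the image of some `F n`, if
  all `F n` are `T1`;
* `exists_factor` : a map from a compact space to the colimit factors through some `F n`;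
* `isColimit_toSSet` : `Sing` preserves the colimit.
-/

open CategoryTheory Limits Topology TopCat

namespace Vale.Agent.P263.TOP

section tel

variable {F : ℕ ⥤ TopCat.{0}} (hF : ∀ n : ℕ, IsClosedEmbedding (F.map (homOfLE (Nat.le_succ n))))

include hF in
theorem isClosedEmbedding_map {i j : ℕ} (h : i ≤ j) : IsClosedEmbedding (F.map (homOfLE h)) := by
  induction j, h using Nat.le_induction with
  | base =>
    have h1 : F.map (homOfLE (le_refl i)) = 𝟙 _ := F.map_id i
    rw [h1]
    exact IsClosedEmbedding.id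
  | succ j h ih =>
    have h1 : F.map (homOfLE (h.trans (Nat.le_succ j))) =
        F.map (homOfLE h) ≫ F.map (homOfLE (Nat.le_succ j)) := by
      rw [← F.map_comp]
      rfl
    have h2 : IsClosedEmbedding (F.map (homOfLE (Nat.le_succ j)) ∘ F.map (homOfLE h)) :=
      (hF j).comp ih
    rw [h1]
    exact h2

variable {c : Cocone F} (hc : IsColimit c)

theorem leg_map {i j : ℕ} (h : i ≤ j) (x : F.obj i) :
    c.ι.app j (F.map (homOfLE h) x) = c.ι.app i x := by
  have h1 := c.w (homOfLE h)
  exact ConcreteCategory.congr_hom h1 x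

include hc in
theorem exists_leg (x : c.pt) : ∃ (n : ℕ) (y : F.obj n), c.ι.app n y = x := by
  obtain ⟨n, y, hy⟩ := Types.jointly_surjective_of_isColimit
    (isColimitOfPreserves (forget TopCat) hc) x
  exact ⟨n, y, hy⟩

include hc in
theorem exists_eq_of_leg_eq {i j : ℕ} {x : F.obj i} {y : F.obj j}
    (h : c.ι.app i x = c.ι.app j y) :
    ∃ (k : ℕ) (hi : i ≤ k) (hj : j ≤ k), F.map (homOfLE hi) x = F.map (homOfLE hj) y := by
  obtain ⟨k, f, g, hfg⟩ := (Types.FilteredColimit.isColimit_eq_iff (F ⋙ forget TopCat)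
    (isColimitOfPreserves (forget TopCat) hc)).1 h
  exact ⟨k, leOfHom f, leOfHom g, hfg⟩

include hF hc in
theorem leg_injective (n : ℕ) : Function.Injective (c.ι.app n) := by
  intro x y h
  obtain ⟨k, hi, hj, hk⟩ := exists_eq_of_leg_eq hc h
  exact (isClosedEmbedding_map hF hi).injective hk

include hF hc in
/-- **The legs are closed embeddings.** -/
theorem isClosedEmbedding_leg (n : ℕ) : IsClosedEmbedding (c.ι.app n) := by
  refine IsClosedEmbedding.of_continuous_injective_isClosedMap (c.ι.app n).hom.continuous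
    (leg_injective hF hc n) ?_
  intro C hC
  rw [TopCat.isClosed_iff_of_isColimit c hc]
  intro j
  rcases le_total n j with h | h
  · have h1 : c.ι.app j ⁻¹' (c.ι.app n '' C) = F.map (homOfLE h) '' C := by
      ext y
      constructor
      · rintro ⟨x, hx, hxy⟩
        refine ⟨x, hx, leg_injective hF hc j ?_⟩
        rw [leg_map h, hxy]
      · rintro ⟨x, hx, rfl⟩
        exact ⟨x, hx, (leg_map h x).symm⟩
    exact h1 ▸ (isClosedEmbedding_map hF h).isClosedMap C hC
  · have h1 : c.ι.app j ⁻¹' (c.ι.app n '' C) = F.map (homOfLE h) ⁻¹' C := by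
      ext y
      constructor
      · rintro ⟨x, hx, hxy⟩
        have h2 : x = F.map (homOfLE h) y := leg_injective hF hc n (by
          rw [hxy, leg_map h])
        change F.map (homOfLE h) y ∈ C
        rwa [← h2]
      · intro hy
        exact ⟨_, hy, leg_map h y⟩
    exact h1 ▸ hC.preimage (F.map (homOfLE h)).hom.continuous

theorem range_leg_mono {i j : ℕ} (h : i ≤ j) :
    Set.range (c.ι.app i) ⊆ Set.range (c.ι.app j) := by
  rintro _ ⟨x, rfl⟩
  exact ⟨_, leg_map h x⟩

include hF hc in
/-- **Compact subsets of the colimit are contained in a stage.** -/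
theorem exists_range_subset (hT : ∀ n, T1Space (F.obj n)) {K : Type*} [TopologicalSpace K]
    [CompactSpace K] {g : K → c.pt} (hg : Continuous g) :
    ∃ n : ℕ, Set.range g ⊆ Set.range (c.ι.app n) := by
  by_contra hcon
  push Not at hcon
  have h1 : ∀ n, ∃ k : K, g k ∉ Set.range (c.ι.app n) := fun n => by
    obtain ⟨_, ⟨k, rfl⟩, hk⟩ := Set.not_subset.1 (hcon n)
    exact ⟨k, hk⟩
  choose k hk using h1
  -- the tails of the sequence are closed
  let Z : ℕ → Set c.pt := fun m => {x | ∃ n, m ≤ n ∧ g (k n) = x}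
  have hZ : ∀ m, IsClosed (Z m) := by
    intro m
    rw [TopCat.isClosed_iff_of_isColimit c hc]
    intro j
    refine Set.Finite.isClosed ?_
    have h2 : (c.ι.app j ⁻¹' Z m) ⊆ ⋃ n ∈ Finset.range j, {y | c.ι.app j y = g (k n)} := by
      rintro y ⟨n, -, hn⟩
      rw [Set.mem_iUnion₂]
      refine ⟨n, Finset.mem_range.2 ?_, hn.symm⟩
      by_contra hjn
      exact hk n (hn ▸ range_leg_mono (not_lt.1 hjn) ⟨y, rfl⟩)
    refine Set.Finite.subset ?_ h2
    refine Set.Finite.biUnion (Finset.finite_toSet _) fun n _ => ?_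
    exact Set.Subsingleton.finite fun x hx y hy =>
      leg_injective hF hc j ((show c.ι.app j x = _ from hx).trans
        (show c.ι.app j y = _ from hy).symm)
  have h3 : (⋂ m, g ⁻¹' Z m).Nonempty := by
    refine IsCompact.nonempty_iInter_of_sequence_nonempty_isCompact_isClosed _ (fun m => ?_)
      (fun m => ⟨k m, m, le_rfl, rfl⟩) ((hZ 0).preimage hg).isCompact
      fun m => (hZ m).preimage hg
    rintro x ⟨n, hn, hx⟩
    exact ⟨n, (Nat.le_succ m).trans hn, hx⟩
  obtain ⟨x, hx⟩ := h3
  obtain ⟨j, y, hy⟩ := exists_leg hc (g x)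
  obtain ⟨n, hn, hnx⟩ := Set.mem_iInter.1 hx j
  refine hk n (range_leg_mono hn ⟨y, ?_⟩)
  rw [hy, hnx]

include hF hc in
/-- **A map from a compact space to the colimit factors through a stage.** -/
theorem exists_factor (hT : ∀ n, T1Space (F.obj n)) {K : Type*} [TopologicalSpace K]
    [CompactSpace K] {g : K → c.pt} (hg : Continuous g) :
    ∃ (n : ℕ) (g' : C(K, F.obj n)), ∀ x, c.ι.app n (g' x) = g x := by
  obtain ⟨n, hn⟩ := exists_range_subset hF hc hT hg
  choose g' hg' using fun x => hn ⟨x, rfl⟩
  refine ⟨n, ⟨g', ?_⟩, hg'⟩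
  rw [(isClosedEmbedding_leg hF hc n).isInducing.continuous_iff]
  exact hg.congr fun x => (hg' x).symm

end tel

/-! ### Singular simplicial sets -/

section sing

theorem toSSetObjEquiv_map {X Y : TopCat.{0}} (f : X ⟶ Y) (n : SimplexCategoryᵒᵖ)
    (s : (TopCat.toSSet.obj X).obj n) :
    TopCat.toSSetObjEquiv Y n ((TopCat.toSSet.map f).app n s) =
      f.hom.comp (TopCat.toSSetObjEquiv X n s) := rfl

variable {F : ℕ ⥤ TopCat.{0}} (hF : ∀ n : ℕ, IsClosedEmbedding (F.map (homOfLE (Nat.le_succ n))))
  (hT : ∀ n, T1Space (F.obj n)) {c : Cocone F} (hc : IsColimit c)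

include hF hT hc in
/-- singular simplices of the colimit come from a stage -/
theorem exists_simplex (q : SimplexCategoryᵒᵖ) (x : (TopCat.toSSet.obj c.pt).obj q) :
    ∃ (n : ℕ) (y : (TopCat.toSSet.obj (F.obj n)).obj q),
      x = (TopCat.toSSet.map (c.ι.app n)).app q y := by
  obtain ⟨n, g, hg⟩ := exists_factor hF hc hT (TopCat.toSSetObjEquiv c.pt q x).continuous
  refine ⟨n, (TopCat.toSSetObjEquiv (F.obj n) q).symm g, ?_⟩
  apply (TopCat.toSSetObjEquiv c.pt q).injective
  rw [toSSetObjEquiv_map, Equiv.apply_symm_apply]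
  exact ContinuousMap.ext fun y => (hg y).symm

include hF hc in
/-- the legs are injective on singular simplices -/
theorem simplex_injective (n : ℕ) (q : SimplexCategoryᵒᵖ) :
    Function.Injective ((TopCat.toSSet.map (c.ι.app n)).app q) := by
  intro x y h
  apply (TopCat.toSSetObjEquiv (F.obj n) q).injective
  have h1 := congrArg (TopCat.toSSetObjEquiv c.pt q) h
  rw [toSSetObjEquiv_map, toSSetObjEquiv_map] at h1
  exact ContinuousMap.ext fun z => leg_injective hF hc n (DFunLike.congr_fun h1 z)

/-- **`Sing` preserves sequential colimits of closed embeddings of `T1` spaces.** -/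
noncomputable def isColimitToSSet : IsColimit (TopCat.toSSet.mapCocone c) :=
  evaluationJointlyReflectsColimits _ fun q =>
    Types.FilteredColimit.isColimitOf' _ _ (fun x => exists_simplex hF hT hc q x)
      fun n x y h => ⟨n, 𝟙 n, by rw [simplex_injective hF hc n q h]⟩

end sing

end Vale.Agent.P263.TOP
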